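import Mathlib

set_option autoImplicit false

/-!
Derivations of a field of characteristic `p` and `p`-dependence.
-/

open Polynomial

namespace Crest.Agent.Row9

variable {L : Type*} [Field L] {p : ℕ} [Fact p.Prime] [CharP L p]

/-- the subfield of `p`-th powers -/
def Gp (L : Type*) [Field L] (p : ℕ) [Fact p.Prime] [CharP L p] : Subfield L :=
  (frobenius L p).fieldRange

theorem mem_Gp {x : L} : x ∈ Gp L p ↔ ∃ y, y ^ p = x := by
  unfold Gp
  rw [RingHom.mem_fieldRange]
  rfl

theorem pow_mem_Gp (x : L) : x ^ p ∈ Gp L p := mem_Gp.mpr ⟨x, rfl⟩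

theorem frob_inj {x y : L} (h : x ^ p = y ^ p) : x = y := by
  have := (frobenius L p).injective
  exact this h

theorem D_Gp (D : Derivation ℤ L L) {g : L} (hg : g ∈ Gp L p) : D g = 0 := by
  obtain ⟨y, rfl⟩ := mem_Gp.mp hg
  rw [Derivation.leibniz_pow]
  simp

/-- existence of a derivation over a subfield `E` containing the `p`-th powers. -/
theorem exists_deriv_aux {M : Subfield L} (hM : Gp L p ≤ M) {z : L} (hz : z ∉ M)
    (hmax : ∀ w, w ∉ M → z ∈ IntermediateField.adjoin M {w}) :
    ∃ D : Derivation ℤ L L, D z = 1 ∧ ∀ e ∈ M, D e = 0 := by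
  have hp : p.Prime := Fact.out
  have hint : ∀ w : L, IsIntegral M w := by
    intro w
    refine ⟨X ^ p - C ⟨w ^ p, hM (pow_mem_Gp w)⟩, monic_X_pow_sub_C _ hp.ne_zero, ?_⟩
    rw [eval₂_sub, eval₂_pow, eval₂_X, eval₂_C]
    change w ^ p - w ^ p = 0
    ring
  have hmin : ∀ w : L, w ∉ M → minpoly M w = X ^ p - C ⟨w ^ p, hM (pow_mem_Gp w)⟩ := by
    intro w hw
    symm
    apply minpoly.eq_of_irreducible_of_monic
    · apply X_pow_sub_C_irreducible_of_prime hp
      intro b hb
      apply hw
      have hb' : (b : L) ^ p = w ^ p := by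
        have := congrArg Subtype.val hb
        simpa using this
      rw [← frob_inj hb']
      exact SetLike.coe_mem _
    · rw [map_sub, map_pow, aeval_X, aeval_C]
      change w ^ p - w ^ p = 0
      ring
    · exact monic_X_pow_sub_C _ hp.ne_zero
  have hfin : ∀ w : L, w ∉ M → Module.finrank M (IntermediateField.adjoin M {w}) = p := by
    intro w hw
    rw [IntermediateField.adjoin.finrank (hint w), hmin w hw, natDegree_X_pow_sub_C]
  have htop : ∀ w : L, w ∈ IntermediateField.adjoin M {z} := by
    intro w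
    by_cases hw : w ∈ M
    · exact (IntermediateField.adjoin M {z}).algebraMap_mem ⟨w, hw⟩
    · have hle : IntermediateField.adjoin M {z} ≤ IntermediateField.adjoin M {w} := by
        rw [IntermediateField.adjoin_simple_le_iff]
        exact hmax w hw
      have : FiniteDimensional M (IntermediateField.adjoin M {w}) :=
        IntermediateField.adjoin.finiteDimensional (hint w)
      have heq := IntermediateField.eq_of_le_of_finrank_eq hle (by rw [hfin z hz, hfin w hw])
      rw [heq]
      exact IntermediateField.mem_adjoin_simple_self M w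
  have hsurj : Function.Surjective (aeval z : M[X] →ₐ[M] L) := by
    intro w
    have hw := htop w
    rw [← IntermediateField.mem_toSubalgebra,
      IntermediateField.adjoin_simple_toSubalgebra_of_isAlgebraic (hint z).isAlgebraic,
      Algebra.adjoin_singleton_eq_range_aeval] at hw
    exact hw
  have hker : ∀ f : M[X], (aeval z : M[X] →ₐ[M] L) f = 0 →
      (aeval z : M[X] →ₐ[M] L) (Polynomial.derivative' (R := M) f) = 0 := by
    intro f hf
    obtain ⟨g, rfl⟩ := minpoly.dvd M z hf
    rw [Polynomial.derivative'_apply, derivative_mul, map_add, map_mul, map_mul, minpoly.aeval,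
      zero_mul, add_zero]
    have : derivative (minpoly M z) = 0 := by
      rw [hmin z hz, derivative_sub, derivative_X_pow, derivative_C]
      have : (p : M) = 0 := by
        apply Subtype.ext
        simp
      rw [this]
      simp
    rw [this, map_zero, zero_mul]
  let D0 := Derivation.liftOfSurjective (f := (aeval z : M[X] →ₐ[M] L)) hsurj
    (d := Polynomial.derivative' (R := M)) hker
  refine ⟨D0.restrictScalars ℤ, ?_, ?_⟩
  · have := Derivation.liftOfSurjective_apply (f := (aeval z : M[X] →ₐ[M] L)) hsurj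
      (d := Polynomial.derivative' (R := M)) hker X
    rw [aeval_X, Polynomial.derivative'_apply, derivative_X, map_one] at this
    exact this
  · intro e he
    exact D0.map_algebraMap (⟨e, he⟩ : M)

theorem exists_deriv {E : Subfield L} (hE : Gp L p ≤ E) {z : L} (hz : z ∉ E) :
    ∃ D : Derivation ℤ L L, D z = 1 ∧ ∀ e ∈ E, D e = 0 := by
  obtain ⟨M, hEM, hmax⟩ := zorn_le_nonempty₀ {M : Subfield L | E ≤ M ∧ z ∉ M} (by
    intro c hc hchain y hy
    refine ⟨sSup c, ⟨?_, ?_⟩, fun s hs => le_sSup hs⟩
    · exact (hc hy).1.trans (le_sSup hy)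
    · intro hmem
      rw [Subfield.mem_sSup_of_directedOn ⟨y, hy⟩ hchain.directedOn] at hmem
      obtain ⟨s, hs, hzs⟩ := hmem
      exact (hc hs).2 hzs) E ⟨le_refl _, hz⟩
  obtain ⟨⟨h1, h2⟩, h3⟩ := hmax
  obtain ⟨D, hD1, hD2⟩ := exists_deriv_aux (hE.trans h1) h2 (by
    intro w hw
    by_contra hzw
    have hle : M ≤ (IntermediateField.adjoin M {w}).toSubfield := by
      intro m hm
      exact (IntermediateField.adjoin M {w}).algebraMap_mem ⟨m, hm⟩
    have := h3 (y := (IntermediateField.adjoin M {w}).toSubfield) ⟨h1.trans hle, hzw⟩ hle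
    exact hw (this (IntermediateField.mem_adjoin_simple_self M w)))
  exact ⟨D, hD1, fun e he => hD2 e (h1 he)⟩

end Crest.Agent.Row9
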