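import Mathlib
import Crest.Agent.Row9.Deriv

set_option autoImplicit false

open Polynomial

namespace Crest.Agent.Row9

variable {L : Type*} [Field L] {p : ℕ} [Fact p.Prime] [CharP L p]

/-- the subfield `L^p(x)` -/
def Gx (p : ℕ) [Fact p.Prime] [CharP L p] (x : L) : Subfield L :=
  Gp L p ⊔ Subfield.closure {x}

theorem Gp_le_Gx (x : L) : Gp L p ≤ Gx p x := le_sup_left

theorem self_mem_Gx (x : L) : x ∈ Gx p x :=
  (le_sup_right : Subfield.closure {x} ≤ Gx p x) (Subfield.subset_closure rfl)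

theorem Gx_le {x : L} {E : Subfield L} (hE : Gp L p ≤ E) (hx : x ∈ E) : Gx p x ≤ E :=
  sup_le hE (Subfield.closure_le.mpr (by simpa using hx))

theorem Gx_eq_adjoin (x : L) :
    Gx p x = (IntermediateField.adjoin (Gp L p) {x}).toSubfield := by
  apply le_antisymm
  · apply Gx_le
    · intro m hm
      exact (IntermediateField.adjoin (Gp L p) {x}).algebraMap_mem ⟨m, hm⟩
    · exact IntermediateField.mem_adjoin_simple_self _ x
  · intro w hw
    have : w ∈ IntermediateField.adjoin (Gp L p) {x} := hw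
    induction this using IntermediateField.adjoin_induction with
    | mem w hw1 => 
      rw [Set.mem_singleton_iff] at hw1
      rw [hw1]; exact self_mem_Gx x
    | algebraMap g => exact Gp_le_Gx x (SetLike.coe_mem g)
    | add a b _ _ ha hb => exact add_mem (ha ‹_›) (hb ‹_›)
    | inv a _ ha => exact inv_mem (ha ‹_›)
    | mul a b _ _ ha hb => exact mul_mem (ha ‹_›) (hb ‹_›)

theorem isIntegral_Gp (w : L) : IsIntegral (Gp L p) w := by
  have hp : p.Prime := Fact.out
  refine ⟨X ^ p - C ⟨w ^ p, (pow_mem_Gp w)⟩, monic_X_pow_sub_C _ hp.ne_zero, ?_⟩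
  rw [eval₂_sub, eval₂_pow, eval₂_X, eval₂_C]
  change w ^ p - w ^ p = 0
  ring

theorem minpoly_Gp {w : L} (hw : w ∉ Gp L p) :
    minpoly (Gp L p) w = X ^ p - C ⟨w ^ p, (pow_mem_Gp w)⟩ := by
  have hp : p.Prime := Fact.out
  symm
  apply minpoly.eq_of_irreducible_of_monic
  · apply X_pow_sub_C_irreducible_of_prime hp
    intro b hb
    apply hw
    have hb' : (b : L) ^ p = w ^ p := by
      have := congrArg Subtype.val hb
      simpa using this
    rw [← frob_inj hb']
    exact SetLike.coe_mem _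
  · rw [map_sub, map_pow, aeval_X, aeval_C]
    change w ^ p - w ^ p = 0
    ring
  · exact monic_X_pow_sub_C _ hp.ne_zero

theorem mem_Gx_iff {x : L} (hx : x ∉ Gp L p) {w : L} :
    w ∈ Gx p x ↔ ∃ f : (Gp L p)[X], f.natDegree < p ∧ aeval x f = w := by
  have hp : p.Prime := Fact.out
  constructor
  · intro hw
    rw [Gx_eq_adjoin] at hw
    have hw' : w ∈ IntermediateField.adjoin (Gp L p) {x} := hw
    rw [← IntermediateField.mem_toSubalgebra,
      IntermediateField.adjoin_simple_toSubalgebra_of_isAlgebraic (isIntegral_Gp x).isAlgebraic,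
      Algebra.adjoin_singleton_eq_range_aeval] at hw'
    obtain ⟨f, hf⟩ := hw'
    refine ⟨f %ₘ minpoly (Gp L p) x, ?_, ?_⟩
    · have h1 := Polynomial.natDegree_modByMonic_lt f (minpoly.monic (isIntegral_Gp x)) (by
        intro h
        have := congrArg natDegree h
        rw [minpoly_Gp hx, natDegree_X_pow_sub_C, natDegree_one] at this
        exact hp.ne_zero this)
      rwa [minpoly_Gp hx, natDegree_X_pow_sub_C, ← minpoly_Gp hx] at h1
    · have : aeval x (f %ₘ minpoly (Gp L p) x) = aeval x f := by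
        conv_rhs => rw [← Polynomial.modByMonic_add_div f (minpoly (Gp L p) x)]
        rw [map_add, map_mul, minpoly.aeval, zero_mul, add_zero]
      rw [this]
      exact hf
  · rintro ⟨f, -, rfl⟩
    rw [Polynomial.aeval_eq_sum_range]
    apply sum_mem
    intro i _
    rw [Algebra.smul_def]
    exact mul_mem (Gp_le_Gx x (SetLike.coe_mem _)) (pow_mem (self_mem_Gx x) i)

theorem aeval_eq_zero {x : L} (hx : x ∉ Gp L p) {f : (Gp L p)[X]} (hf : f.natDegree < p)
    (h : aeval x f = 0) : f = 0 := by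
  by_contra hne
  have h1 := minpoly.dvd (Gp L p) x h
  have h2 := natDegree_le_of_dvd h1 hne
  rw [minpoly_Gp hx, natDegree_X_pow_sub_C] at h2
  omega

theorem D_aeval (D : Derivation ℤ L L) (x : L) (f : (Gp L p)[X]) :
    D (aeval x f) = aeval x (derivative f) * D x := by
  induction f using Polynomial.induction_on' with
  | add f g hf hg => rw [map_add, map_add, hf, hg, derivative_add, map_add]; ring
  | monomial n a =>
    rw [derivative_monomial, aeval_monomial, aeval_monomial, Derivation.leibniz,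
      Derivation.leibniz_pow]
    have : D (algebraMap (Gp L p) L a) = 0 := D_Gp D (SetLike.coe_mem a)
    rw [this]
    simp only [smul_eq_mul, nsmul_eq_mul, mul_zero, add_zero, map_mul, map_natCast]
    ring

/-- derivations with `D t ∈ Gx t` preserve `Gx t` -/
theorem D_mem_Gx (D : Derivation ℤ L L) {t : L} (ht : t ∉ Gp L p) (hD : D t ∈ Gx p t) {w : L}
    (hw : w ∈ Gx p t) : D w ∈ Gx p t := by
  obtain ⟨f, -, rfl⟩ := (mem_Gx_iff ht).mp hw
  rw [D_aeval]
  apply mul_mem _ hD
  rw [Polynomial.aeval_eq_sum_range]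
  apply sum_mem
  intro i _
  rw [Algebra.smul_def]
  exact mul_mem (Gp_le_Gx t (SetLike.coe_mem _)) (pow_mem (self_mem_Gx t) i)

theorem D_eq_zero_of_mem_Gx (D : Derivation ℤ L L) {t : L} (ht : t ∉ Gp L p) (hD : D t = 0) {w : L}
    (hw : w ∈ Gx p t) : D w = 0 := by
  obtain ⟨f, -, rfl⟩ := (mem_Gx_iff ht).mp hw
  rw [D_aeval, hD, mul_zero]

/-- eigenvectors of the Euler derivation. -/
theorem eigen (D : Derivation ℤ L L) {x : L} (hx : x ∉ Gp L p) (hD : D x = x) {w γ : L}
    (hw : w ∈ Gx p x) (hw0 : w ≠ 0) (hγ : γ ∈ Gp L p) (h : D w = γ * w) :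
    ∃ i : ℕ, i < p ∧ γ = i ∧ ∃ c : Gp L p, c ≠ 0 ∧ w = c * x ^ i := by
  have hp : p.Prime := Fact.out
  obtain ⟨f, hf, rfl⟩ := (mem_Gx_iff hx).mp hw
  rw [D_aeval, hD] at h
  have hf0 : f ≠ 0 := by
    rintro rfl
    exact hw0 (map_zero _)
  have h1 : aeval x (derivative f * X - C (⟨γ, hγ⟩ : Gp L p) * f) = 0 := by
    rw [map_sub, map_mul, map_mul, aeval_X, aeval_C, h]
    change γ * _ - γ * _ = 0
    ring
  have hdeg : (derivative f * X - C (⟨γ, hγ⟩ : Gp L p) * f).natDegree < p := by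
    apply lt_of_le_of_lt _ hf
    apply (natDegree_sub_le _ _).trans
    apply max_le
    · by_cases hdf : derivative f = 0
      · rw [hdf, zero_mul, natDegree_zero]; exact Nat.zero_le _
      · rw [natDegree_mul_X hdf]
        have : (derivative f).natDegree < f.natDegree := by
          apply natDegree_derivative_lt
          intro h0
          rw [natDegree_eq_zero] at h0
          obtain ⟨c, rfl⟩ := h0
          exact hdf derivative_C
        omega
    · exact natDegree_C_mul_le _ _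
  have h2 := aeval_eq_zero hx hdeg h1
  have h3 : ∀ i : ℕ, ((i : Gp L p) - ⟨γ, hγ⟩) * f.coeff i = 0 := by
    intro i
    have := congrArg (fun g => g.coeff i) h2
    simp only [coeff_sub, coeff_C_mul, coeff_zero] at this
    cases i with
    | zero =>
      rw [coeff_mul_X_zero] at this
      rw [Nat.cast_zero]
      linear_combination this
    | succ n =>
      rw [coeff_mul_X, coeff_derivative] at this
      push_cast
      linear_combination this
  obtain ⟨i, hi⟩ : ∃ i, f.coeff i ≠ 0 := by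
    by_contra hcon
    push Not at hcon
    exact hf0 (Polynomial.ext hcon)
  have hilt : i < p := lt_of_le_of_lt (le_natDegree_of_ne_zero hi) hf
  have hγi : (i : Gp L p) - ⟨γ, hγ⟩ = 0 := by
    rcases mul_eq_zero.mp (h3 i) with h | h
    · exact h
    · exact absurd h hi
  have hγi' : γ = i := by
    have := congrArg Subtype.val hγi
    push_cast at this
    have h4 : (i : L) - γ = 0 := this
    linear_combination -h4
  refine ⟨i, hilt, hγi', f.coeff i, hi, ?_⟩
  have hfi : f = C (f.coeff i) * X ^ i := by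
    ext1 j
    rw [coeff_C_mul, coeff_X_pow]
    split_ifs with hji
    · rw [hji, mul_one]
    · rw [mul_zero]
      by_contra hfj
      have hjlt : j < p := lt_of_le_of_lt (le_natDegree_of_ne_zero hfj) hf
      rcases mul_eq_zero.mp (h3 j) with h | h
      · apply hji
        apply CharP.natCast_injOn_Iio (Gp L p) p hjlt hilt
        linear_combination h - hγi
      · exact hfj h
  conv_lhs => rw [hfi]
  rw [map_mul, aeval_C, map_pow, aeval_X]
  rfl


theorem natCast_ne_zero' {i : ℕ} (hi : i < p) (h : i ≠ 0) : (i : L) ≠ 0 := by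
  intro h0
  apply h
  apply CharP.natCast_injOn_Iio L p hi (Fact.out : p.Prime).pos
  rw [h0, Nat.cast_zero]

theorem mem_Gp_of_D_eq_zero (D : Derivation ℤ L L) {x : L} (hx : x ∉ Gp L p) (hD : D x = x) {w : L}
    (hw : w ∈ Gx p x) (h : D w = 0) : w ∈ Gp L p := by
  by_cases hw0 : w = 0
  · rw [hw0]; exact zero_mem _
  obtain ⟨i, hi, h0, c, -, hc⟩ := eigen D hx hD hw hw0 (zero_mem _) (by rw [h, zero_mul])
  have : i = 0 := by
    by_contra hne
    exact natCast_ne_zero' hi hne h0.symm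
  rw [hc, this, pow_zero, mul_one]
  exact SetLike.coe_mem _

/-- `q^c` lies on the line through `x^c` and `1` -/
def Tw (p : ℕ) [Fact p.Prime] [CharP L p] (c : ℕ) (x q : L) : Prop :=
  ∃ g α : Gp L p, g ≠ 0 ∧ α ≠ 0 ∧ q ^ c = g * (x ^ c + α)

theorem exists_euler {E : Subfield L} (hE : Gp L p ≤ E) {z : L} (hz : z ∉ E) :
    ∃ D : Derivation ℤ L L, D z = z ∧ ∀ e ∈ E, D e = 0 := by
  obtain ⟨D, h1, h2⟩ := exists_deriv hE hz
  refine ⟨z • D, ?_, ?_⟩
  · rw [Derivation.smul_apply, h1, smul_eq_mul, mul_one]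
  · intro e he
    rw [Derivation.smul_apply, h2 e he, smul_zero]

theorem D_pow (D : Derivation ℤ L L) (x : L) (c : ℕ) (hx : x ≠ 0) :
    D (x ^ c) = c * x ^ c * (D x / x) := by
  rw [Derivation.leibniz_pow]
  simp only [smul_eq_mul, nsmul_eq_mul]
  cases c with
  | zero => simp
  | succ n =>
    rw [Nat.add_sub_cancel]
    field_simp
    ring

theorem Tw_unique {x q : L} (hx : x ∉ Gp L p) (hq : q ≠ 0) {c d : ℕ} (hc1 : 1 ≤ c) (hc : c < p)
    (hd1 : 1 ≤ d) (hd : d < p) (h1 : Tw p c x q) (h2 : Tw p d x q) : c = d := by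
  obtain ⟨g, α, hg, hα, e1⟩ := h1
  obtain ⟨k, β, hk, hβ, e2⟩ := h2
  obtain ⟨D, hD, -⟩ := exists_euler (le_refl (Gp L p)) hx
  have hx0 : x ≠ 0 := by rintro rfl; exact hx (zero_mem _)
  have hDx : D x / x = 1 := by rw [hD]; field_simp
  have hg' : (g : L) ≠ 0 := by simpa using hg
  have hk' : (k : L) ≠ 0 := by simpa using hk
  have hβ' : (β : L) ≠ 0 := by simpa using hβ
  have hc0 : (c : L) ≠ 0 := natCast_ne_zero' hc (by omega)
  have hd0 : (d : L) ≠ 0 := natCast_ne_zero' hd (by omega)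
  have key : ∀ (c : ℕ) (g α : Gp L p), (g : L) ≠ 0 → (c : L) ≠ 0 → q ^ c = g * (x ^ c + α) →
      (D q / q) * (x ^ c + α) = x ^ c := by
    intro c g α hg hc e
    have e3 := congrArg D e
    rw [D_pow D q c hq, Derivation.leibniz, D_Gp D (SetLike.coe_mem g), map_add,
      D_Gp D (SetLike.coe_mem α), D_pow D x c hx0, hDx, e] at e3
    simp only [smul_eq_mul, mul_zero, add_zero, mul_one] at e3
    apply mul_left_cancel₀ hg
    apply mul_left_cancel₀ hc
    linear_combination e3
  have k1 := key c g α hg' hc0 e1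
  have k2 := key d k β hk' hd0 e2
  have hP : D q / q ≠ 0 := by
    intro h0
    rw [h0, zero_mul] at k1
    exact pow_ne_zero c hx0 k1.symm
  have e3 : (β : L) * x ^ c = α * x ^ d := by
    apply mul_left_cancel₀ hP
    linear_combination x ^ c * k2 - x ^ d * k1
  have e4 := congrArg D e3
  rw [Derivation.leibniz, Derivation.leibniz, D_Gp D (SetLike.coe_mem β),
    D_Gp D (SetLike.coe_mem α), D_pow D x c hx0, D_pow D x d hx0, hDx] at e4
  simp only [smul_eq_mul, mul_zero, add_zero, mul_one] at e4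
  have e5 : ((c : L) - d) * (β * x ^ c) = 0 := by linear_combination e4 - d * e3
  rcases mul_eq_zero.mp e5 with h | h
  · apply CharP.natCast_injOn_Iio L p hc hd
    linear_combination h
  · exact absurd h (mul_ne_zero hβ' (pow_ne_zero c hx0))

/-- auxiliary: from `u - 1 = α x^i`, `1 ≤ i`, get the twisted line statement. -/
theorem Tw_of (D : Derivation ℤ L L) {x q : L} (hx : x ∉ Gp L p) (hD : D x = x)
    (hq : q ∈ Gx p x) (hq0 : q ≠ 0) (hDq : D q ≠ 0) {i : ℕ} (hi : i < p)
    {α : Gp L p} (hα : α ≠ 0) (hu : q / D q - 1 = α * x ^ i) : Tw p (p - i) x q := by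
  have hx0 : x ≠ 0 := by rintro rfl; exact hx (zero_mem _)
  have hα' : (α : L) ≠ 0 := by simpa using hα
  set c := p - i with hc
  have hxp : x ^ c * x ^ i = x ^ p := by rw [← pow_add]; congr 1; omega
  have hu0 : q / D q ≠ 0 := div_ne_zero hq0 hDq
  have hw : x ^ c + α * x ^ p = x ^ c * (q / D q) := by
    rw [← hxp]; linear_combination -x ^ c * hu
  have hw0 : x ^ c + α * x ^ p ≠ 0 := by
    rw [hw]; exact mul_ne_zero (pow_ne_zero _ hx0) hu0
  have hDx : D x / x = 1 := by rw [hD]; field_simp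
  have hg : q ^ c / (x ^ c + α * x ^ p) ∈ Gp L p := by
    apply mem_Gp_of_D_eq_zero D hx hD
    · apply div_mem (pow_mem hq c)
      apply add_mem (pow_mem (self_mem_Gx x) c)
      exact mul_mem (Gp_le_Gx x (SetLike.coe_mem _)) (pow_mem (self_mem_Gx x) p)
    · rw [Derivation.leibniz_div, map_add, Derivation.leibniz, D_Gp D (SetLike.coe_mem α),
        D_Gp D (pow_mem_Gp x), D_pow D q c hq0, D_pow D x c hx0, hDx, hw]
      simp only [smul_eq_mul, mul_zero, add_zero, mul_one]
      field_simp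
      ring
  refine ⟨⟨_, hg⟩, α * ⟨_, pow_mem_Gp x⟩, ?_, ?_, ?_⟩
  · intro h
    have := congrArg Subtype.val h
    exact div_ne_zero (pow_ne_zero c hq0) hw0 this
  · intro h
    rcases mul_eq_zero.mp h with h | h
    · exact hα h
    · exact pow_ne_zero p hx0 (congrArg Subtype.val h)
  · push_cast
    field_simp

theorem core {x y q r z : L} (hxy : x ∉ Gx p y) (hyx : y ∉ Gx p x)
    (hq : q ∈ Gx p x) (hqG : q ∉ Gp L p) (hqx : q / x ∉ Gp L p)
    (hr : r ∈ Gx p y) (hrG : r ∉ Gp L p) (hry : r / y ∉ Gp L p)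
    (hz0 : z ≠ 0) (hz : z / y ∈ Gx p (x / y))
    (hR : ∀ D1 D2 : Derivation ℤ L L, D1 (z / r) * D2 (q / r) = D2 (z / r) * D1 (q / r)) :
    (∃ c, 1 ≤ c ∧ c < p ∧ Tw p c x q ∧ Tw p c y r) ∨
      (∃ j, 2 ≤ j ∧ j < p ∧ ∃ g : Gp L p, g ≠ 0 ∧ q = g * x ^ j) := by
  have hx : x ∉ Gp L p := fun h => hxy (Gp_le_Gx y h)
  have hy : y ∉ Gp L p := fun h => hyx (Gp_le_Gx x h)
  have hx0 : x ≠ 0 := by rintro rfl; exact hx (zero_mem _)
  have hy0 : y ≠ 0 := by rintro rfl; exact hy (zero_mem _)
  have hq0 : q ≠ 0 := by rintro rfl; exact hqG (zero_mem _)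
  have hr0 : r ≠ 0 := by rintro rfl; exact hrG (zero_mem _)
  obtain ⟨D1, h1x, h1⟩ := exists_euler (Gp_le_Gx y) hxy
  obtain ⟨D2, h2y, h2⟩ := exists_euler (Gp_le_Gx x) hyx
  have h1y := h1 y (self_mem_Gx y)
  have h2x := h2 x (self_mem_Gx x)
  have h1r := h1 r hr
  have h2q := h2 q hq
  -- `x / y`
  have hxyG : x / y ∉ Gp L p := by
    intro h
    apply hxy
    have : x = (x / y) * y := by field_simp
    rw [this]
    exact mul_mem (Gp_le_Gx y h) (self_mem_Gx y)
  have h1xy : D1 (x / y) = x / y := by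
    rw [Derivation.leibniz_div, h1x, h1y]
    simp only [smul_eq_mul]
    field_simp
    ring
  have h2xy : D2 (x / y) = -(x / y) := by
    rw [Derivation.leibniz_div, h2x, h2y]
    simp only [smul_eq_mul]
    field_simp
    ring
  have hDxy : (D1 + D2) (x / y) = 0 := by
    rw [Derivation.add_apply, h1xy, h2xy]; ring
  obtain ⟨w, hw, rfl⟩ : ∃ w ∈ Gx p (x / y), z = y * w := ⟨z / y, hz, by field_simp⟩
  have hw0 : w ≠ 0 := fun h => hz0 (by rw [h, mul_zero])
  have h1w : D1 w ∈ Gx p (x / y) :=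
    D_mem_Gx D1 hxyG (by rw [h1xy]; exact self_mem_Gx _) hw
  have hA : D1 w / w ∈ Gx p (x / y) := div_mem h1w hw
  have hDA := D_eq_zero_of_mem_Gx (D1 + D2) hxyG hDxy hA
  have hDw := D_eq_zero_of_mem_Gx (D1 + D2) hxyG hDxy hw
  rw [Derivation.add_apply] at hDA hDw
  set A := D1 w / w with hAdef
  have h1w' : D1 w = A * w := by rw [hAdef]; field_simp
  have h2w' : D2 w = -(A * w) := by linear_combination hDw - h1w'
  -- the logarithmic derivatives P, Q
  obtain ⟨P, hP⟩ : ∃ P, P = D1 q / q := ⟨_, rfl⟩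
  obtain ⟨Q, hQ⟩ : ∃ Q, Q = D2 r / r := ⟨_, rfl⟩
  have h1q : D1 q = P * q := by rw [hP]; field_simp
  have h2r : D2 r = Q * r := by rw [hQ]; field_simp
  have hPm : P ∈ Gx p x := by
    rw [hP]
    exact div_mem (D_mem_Gx D1 hx (by rw [h1x]; exact self_mem_Gx _) hq) hq
  have hQm : Q ∈ Gx p y := by
    rw [hQ]
    exact div_mem (D_mem_Gx D2 hy (by rw [h2y]; exact self_mem_Gx _) hr) hr
  have hP0 : P ≠ 0 := by
    intro h
    apply hqG
    apply mem_Gp_of_D_eq_zero D1 hx h1x hq
    rw [h1q, h, zero_mul]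
  have hQ0 : Q ≠ 0 := by
    intro h
    apply hrG
    apply mem_Gp_of_D_eq_zero D2 hy h2y hr
    rw [h2r, h, zero_mul]
  have hP1 : P ≠ 1 := by
    intro h
    apply hqx
    apply mem_Gp_of_D_eq_zero D1 hx h1x (div_mem hq (self_mem_Gx x))
    rw [Derivation.leibniz_div, h1q, h1x, h]
    simp only [smul_eq_mul]
    ring
  have hQ1 : Q ≠ 1 := by
    intro h
    apply hry
    apply mem_Gp_of_D_eq_zero D2 hy h2y (div_mem hr (self_mem_Gx y))
    rw [Derivation.leibniz_div, h2r, h2y, h]
    simp only [smul_eq_mul]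
    ring
  have hRel : A * (P - Q) = P * (1 - Q) := by
    have := hR D1 D2
    rw [Derivation.leibniz_div, Derivation.leibniz_div, Derivation.leibniz_div,
      Derivation.leibniz_div, Derivation.leibniz, Derivation.leibniz, h1r, h2r, h1q, h2q,
      h1y, h2y, h1w', h2w'] at this
    simp only [smul_eq_mul, mul_zero, add_zero, zero_sub, sub_zero] at this
    have hne : (r⁻¹ ^ 2) * (r⁻¹ ^ 2) * (r * r) * (y * w) * q ≠ 0 := by positivity
    apply mul_left_cancel₀ hne
    linear_combination this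
  have hPQ : P ≠ Q := by
    intro h
    rw [← h, sub_self, mul_zero] at hRel
    rcases mul_eq_zero.mp hRel.symm with h | h
    · exact hP0 h
    · exact hP1 (by linear_combination -h)
  obtain ⟨u, hu⟩ : ∃ u, u = P⁻¹ := ⟨_, rfl⟩
  obtain ⟨v, hv⟩ : ∃ v, v = Q⁻¹ := ⟨_, rfl⟩
  have hum : u ∈ Gx p x := by rw [hu]; exact inv_mem hPm
  have hvm : v ∈ Gx p y := by rw [hv]; exact inv_mem hQm
  have hPu : P * u = 1 := by rw [hu]; field_simp
  have hQv : Q * v = 1 := by rw [hv]; field_simp
  have hu1 : u - 1 ≠ 0 := by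
    intro h
    apply hP1
    have : u = 1 := by linear_combination h
    rw [this, mul_one] at hPu
    exact hPu
  have hv1 : v - 1 ≠ 0 := by
    intro h
    apply hQ1
    have : v = 1 := by linear_combination h
    rw [this, mul_one] at hQv
    exact hQv
  have hA2 : A * (v - u) = v - 1 := by
    linear_combination (u * v) * hRel - (A * v + (Q * v - v)) * hPu + (A * u - 1) * hQv
  have h1v := h1 v hvm
  have h2u := h2 u hum
  have hder : A * (D2 v - D1 u) = D2 v := by
    have e1 := congrArg D1 hA2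
    have e2 := congrArg D2 hA2
    rw [Derivation.leibniz, map_sub, map_sub, h1v, Derivation.map_one_eq_zero] at e1
    rw [Derivation.leibniz, map_sub, map_sub, h2u, Derivation.map_one_eq_zero] at e2
    simp only [smul_eq_mul] at e1 e2
    linear_combination e1 + e2 - (v - u) * hDA
  have hcross : (v - 1) * D1 u = (u - 1) * D2 v := by
    linear_combination (D2 v - D1 u) * hA2 - (v - u) * hder
  obtain ⟨γ, hγ⟩ : ∃ γ, γ = D1 u / (u - 1) := ⟨_, rfl⟩
  have h1u : D1 u = γ * (u - 1) := by rw [hγ]; field_simp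
  have h2v : D2 v = γ * (v - 1) := by
    apply mul_left_cancel₀ hu1
    linear_combination -hcross + (v - 1) * h1u
  have hγx : γ ∈ Gx p x := by
    rw [hγ]
    exact div_mem (D_mem_Gx D1 hx (by rw [h1x]; exact self_mem_Gx _) hum)
      (sub_mem hum (one_mem _))
  have hγy : γ ∈ Gx p y := by
    have : γ = D2 v / (v - 1) := by rw [h2v]; field_simp
    rw [this]
    exact div_mem (D_mem_Gx D2 hy (by rw [h2y]; exact self_mem_Gx _) hvm)
      (sub_mem hvm (one_mem _))
  have hγG : γ ∈ Gp L p := mem_Gp_of_D_eq_zero D1 hx h1x hγx (h1 γ hγy)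
  obtain ⟨i, hi, hγi, α, hα, hαe⟩ := eigen D1 hx h1x (sub_mem hum (one_mem _)) hu1 hγG
    (by rw [map_sub, Derivation.map_one_eq_zero, sub_zero, h1u])
  obtain ⟨j, hj, hγj, β, hβ, hβe⟩ := eigen D2 hy h2y (sub_mem hvm (one_mem _)) hv1 hγG
    (by rw [map_sub, Derivation.map_one_eq_zero, sub_zero, h2v])
  have hij : i = j := CharP.natCast_injOn_Iio L p hi hj (by rw [← hγi, ← hγj])
  subst hij
  by_cases hi0 : i = 0
  · right
    subst hi0
    rw [pow_zero, mul_one] at hαe
    have hPG : P ∈ Gp L p := by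
      have : P = ((1 / (1 + α) : Gp L p) : L) := by
        have : u = 1 + α := by linear_combination hαe
        have h3 : (1 : L) + α ≠ 0 := by
          rw [← this]
          intro h
          rw [h, mul_zero] at hPu
          exact zero_ne_one hPu
        push_cast
        rw [eq_div_iff h3, ← this, hPu]
      rw [this]
      exact SetLike.coe_mem _
    obtain ⟨k, hk, hPk, c, hc, hqe⟩ := eigen D1 hx h1x hq hq0 hPG h1q
    refine ⟨k, ?_, hk, c, hc, hqe⟩
    have hk0 : k ≠ 0 := by
      rintro rfl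
      exact hP0 (by rw [hPk, Nat.cast_zero])
    have hk1 : k ≠ 1 := by
      rintro rfl
      exact hP1 (by rw [hPk, Nat.cast_one])
    omega
  · left
    have h1q0 : D1 q ≠ 0 := by rw [h1q]; exact mul_ne_zero hP0 hq0
    have h2r0 : D2 r ≠ 0 := by rw [h2r]; exact mul_ne_zero hQ0 hr0
    refine ⟨p - i, by omega, by omega, ?_, ?_⟩
    · apply Tw_of D1 hx h1x hq hq0 h1q0 hi hα
      rw [← hαe, hu, hP, inv_div]
    · apply Tw_of D2 hy h2y hr hr0 h2r0 hi hβ
      rw [← hβe, hv, hQ, inv_div]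

end Crest.Agent.Row9
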