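import Mathlib

set_option autoImplicit false

/-!
A fundamental theorem of projective geometry with a multiplicative structure: a relation
`M x y` ("the class of `x` modulo `F` corresponds to the class of `y` modulo `G`").
-/

namespace Crest.Agent.Row9

variable {K L : Type*} [Field K] [Field L]

/-- `1, x, y` are linearly independent over the subfield `F`. -/
def Ind (F : Subfield K) (x y : K) : Prop :=
  ∀ a b c : F, (a : K) + b * x + c * y = 0 → a = 0 ∧ b = 0 ∧ c = 0

theorem Ind.symm {F : Subfield K} {x y : K} (h : Ind F x y) : Ind F y x := by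
  intro a b c e
  have := h a c b (by linear_combination e)
  exact ⟨this.1, this.2.2, this.2.1⟩

theorem Ind.left {F : Subfield K} {x y : K} (h : Ind F x y) : x ∉ F := by
  intro hx
  have := h ⟨x, hx⟩ (-1) 0 (by push_cast; ring)
  simpa using this.2.1

theorem Ind.right {F : Subfield K} {x y : K} (h : Ind F x y) : y ∉ F := h.symm.left

theorem ind_of {F : Subfield K} {x y : K} (hx : x ∉ F) (hy : ∀ a b : F, y ≠ a + b * x) :
    Ind F x y := by
  intro a b c e
  have hc : c = 0 := by
    by_contra hc
    have hc' : (c : K) ≠ 0 := by simpa using hc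
    apply hy (-a / c) (-b / c)
    push_cast
    field_simp
    linear_combination e
  subst hc
  have hb : b = 0 := by
    by_contra hb
    have hb' : (b : K) ≠ 0 := by simpa using hb
    apply hx
    have : x = ((-a / b : F) : K) := by
      push_cast
      field_simp
      push_cast at e
      linear_combination e
    rw [this]
    exact SetLike.coe_mem _
  subst hb
  refine ⟨?_, rfl, rfl⟩
  have : (a : K) = 0 := by simpa using e
  simpa using this

theorem not_ind_of {F : Subfield K} {x y : K} (hx : x ∉ F) (h : ¬ Ind F x y) :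
    ∃ a b : F, y = a + b * x := by
  by_contra hcon
  push Not at hcon
  exact h (ind_of hx hcon)

/-- The relation describing a multiplicative projective isomorphism. -/
structure ProjRel (F : Subfield K) (G : Subfield L) (M : K → L → Prop) : Prop where
  left_ne : ∀ {x y}, M x y → x ≠ 0
  right_ne : ∀ {x y}, M x y → y ≠ 0
  exists_right : ∀ {x}, x ≠ 0 → ∃ y, M x y
  exists_left : ∀ {y}, y ≠ 0 → ∃ x, M x y
  right_unique : ∀ {x y y'}, M x y → M x y' → ∃ g : G, y' = g * y
  left_unique : ∀ {x x' y}, M x y → M x' y → ∃ f : F, x' = f * x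
  smul_right : ∀ {x y} (g : G), M x y → g ≠ 0 → M x (g * y)
  smul_left : ∀ {x y} (f : F), M x y → f ≠ 0 → M (f * x) y
  mul : ∀ {x y x' y'}, M x y → M x' y' → M (x * x') (y * y')
  inv : ∀ {x y}, M x y → M x⁻¹ y⁻¹
  one : M 1 1
  line : ∀ {x y} (a : F), M x y → x ∉ F → ∃ α : G, M (x + a) (y + α)
  line' : ∀ {x y} (α : G), M x y → y ∉ G → ∃ a : F, M (x + a) (y + α)

namespace ProjRel

variable {F : Subfield K} {G : Subfield L} {M : K → L → Prop} (h : ProjRel F G M)
include h

theorem swap : ProjRel G F (fun y x => M x y) where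
  left_ne := h.right_ne
  right_ne := h.left_ne
  exists_right := h.exists_left
  exists_left := h.exists_right
  right_unique := h.left_unique
  left_unique := h.right_unique
  smul_right := fun f m hf => h.smul_left f m hf
  smul_left := fun g m hg => h.smul_right g m hg
  mul := h.mul
  inv := h.inv
  one := h.one
  line := fun a m hy => h.line' a m hy
  line' := fun a m hx => h.line a m hx

theorem mem_right {x : K} {y : L} (m : M x y) (hx : x ∈ F) : y ∈ G := by
  have hx0 : (⟨x, hx⟩ : F) ≠ 0 := by
    intro e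
    exact h.left_ne m (by simpa using congrArg Subtype.val e)
  have m' := h.smul_left ⟨x, hx⟩ h.one hx0
  simp only [mul_one] at m'
  obtain ⟨g, hg⟩ := h.right_unique m' m
  rw [hg]
  simp

theorem mem_left {x : K} {y : L} (m : M x y) (hy : y ∈ G) : x ∈ F := h.swap.mem_right m hy

theorem not_mem_right {x : K} {y : L} (m : M x y) (hx : x ∉ F) : y ∉ G := fun hy => hx (h.mem_left m hy)

theorem not_mem_left {x : K} {y : L} (m : M x y) (hy : y ∉ G) : x ∉ F := h.swap.not_mem_right m hy

/-- independence is transported -/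
theorem ind {x y : K} {x' y' : L} (hi : Ind F x y) (mx : M x x') (my : M y y') : Ind G x' y' := by
  apply ind_of (h.not_mem_right mx hi.left)
  intro a b e
  have hb : b ≠ 0 := by
    rintro rfl
    apply h.not_mem_right my hi.right
    rw [e]; simp
  have m1 : M x (b * x') := h.smul_right b mx hb
  have hbx : (b : L) * x' ∉ G := h.not_mem_right m1 hi.left
  obtain ⟨c, hc⟩ := h.line' a m1 hbx
  have e' : y' = b * x' + a := by rw [e]; ring
  rw [← e'] at hc
  obtain ⟨f, hf⟩ := h.left_unique hc my
  have := hi (f * c) f (-1) (by push_cast; rw [hf]; ring)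
  simpa using this.2.2

/-- General form of the line property. -/
theorem line_general {u v : K} {u' v' : L} (mu : M u u') (mv : M v v') (huv : u / v ∉ F) :
    ∃ α : G, α ≠ 0 ∧ M (u + v) (u' + α * v') := by
  have hv := h.left_ne mv
  have hv' := h.right_ne mv
  have m1 : M (u / v) (u' / v') := by
    rw [div_eq_mul_inv, div_eq_mul_inv]
    exact h.mul mu (h.inv mv)
  obtain ⟨α, hα⟩ := h.line 1 m1 huv
  have m2 := h.mul hα mv
  refine ⟨α, ?_, ?_⟩
  · rintro rfl
    simp only [ZeroMemClass.coe_zero, add_zero, OneMemClass.coe_one] at hα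
    obtain ⟨f, hf⟩ := h.left_unique m1 hα
    have hf1 : (f : K) ≠ 1 := by
      intro e
      rw [e, one_mul] at hf
      simp at hf
    have : u / v = ((1 / (f - 1) : F) : K) := by
      have : (f : K) - 1 ≠ 0 := sub_ne_zero.mpr hf1
      push_cast
      rw [eq_div_iff this]
      linear_combination -hf
    exact huv (this ▸ SetLike.coe_mem _)
  · convert m2 using 1
    · field_simp; push_cast; ring
    · field_simp

/-- existence of the normalised representative -/
theorem exists_rep {x : K} (hx : x ∉ F) : ∃ y, M x y ∧ M (x + 1) (y + 1) := by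
  have hx0 : x ≠ 0 := by rintro rfl; exact hx (zero_mem F)
  obtain ⟨y, m⟩ := h.exists_right hx0
  obtain ⟨α, hα, m1⟩ := h.line_general m h.one (by simpa using hx)
  refine ⟨(α⁻¹ : G) * y, h.smul_right _ m (inv_ne_zero hα), ?_⟩
  have := h.smul_right (α⁻¹ : G) m1 (inv_ne_zero hα)
  convert this using 1
  have hα' : (α : L) ≠ 0 := by simpa using hα
  push_cast
  field_simp

theorem rep_unique {x : K} (hx : x ∉ F) {y y' : L} (m : M x y) (m1 : M (x + 1) (y + 1))
    (m' : M x y') (m1' : M (x + 1) (y' + 1)) : y = y' := by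
  obtain ⟨g, hg⟩ := h.right_unique m m'
  obtain ⟨k, hk⟩ := h.right_unique m1 m1'
  have hy : y ∉ G := h.not_mem_right m hx
  by_cases hgk : g = k
  · subst hgk
    have : (g : L) = 1 := by linear_combination hg - hk
    rw [hg, this, one_mul]
  · exfalso
    have hgk' : (g : L) - k ≠ 0 := by
      intro e
      apply hgk
      exact Subtype.ext (sub_eq_zero.mp e)
    apply hy
    have : y = (((k - 1) / (g - k) : G) : L) := by
      push_cast
      rw [eq_div_iff hgk']
      linear_combination hk - hg
    rw [this]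
    exact SetLike.coe_mem _

open Classical in
/-- the normalised representative -/
noncomputable def rep (_ : ProjRel F G M) (x : K) : L :=
  if hx : ∃ y, M x y ∧ M (x + 1) (y + 1) then hx.choose else 0

theorem rep_spec {x : K} (hx : x ∉ F) : M x (h.rep x) ∧ M (x + 1) (h.rep x + 1) := by
  have := h.exists_rep hx
  unfold rep
  rw [dif_pos this]
  exact this.choose_spec

theorem rep_eq {x : K} (hx : x ∉ F) {y : L} (m : M x y) (m1 : M (x + 1) (y + 1)) :
    h.rep x = y :=
  h.rep_unique hx (h.rep_spec hx).1 (h.rep_spec hx).2 m m1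

/-- additivity in the independent case -/
theorem rep_add_aux {x y : K} (hi : Ind F x y) :
    M (x + y) (h.rep x + h.rep y) ∧ M (x + y + 1) (h.rep x + h.rep y + 1) := by
  obtain ⟨mx, mx1⟩ := h.rep_spec hi.left
  obtain ⟨my, my1⟩ := h.rep_spec hi.right
  set sx := h.rep x
  set sy := h.rep y
  have hi' : Ind G sx sy := h.ind hi mx my
  have hx0 : x ≠ 0 := h.left_ne mx
  have hy0 : y ≠ 0 := h.left_ne my
  have e1 : (x + 1) / y ∉ F := by
    intro hF
    have := hi 1 1 (-⟨_, hF⟩) (by push_cast; field_simp; ring)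
    simpa using this.1
  have e2 : (y + 1) / x ∉ F := by
    intro hF
    have := hi.symm 1 1 (-⟨_, hF⟩) (by push_cast; field_simp; ring)
    simpa using this.1
  have e3 : x / y ∉ F := by
    intro hF
    have := hi 0 1 (-⟨_, hF⟩) (by push_cast; field_simp; ring)
    simpa using this.2.1
  obtain ⟨α, -, ma⟩ := h.line_general mx1 my e1
  obtain ⟨β, -, mb⟩ := h.line_general my1 mx e2
  obtain ⟨γ, -, mc⟩ := h.line_general mx my e3
  have e4 : x + 1 + y = x + y + 1 := by ring
  have e5 : y + 1 + x = x + y + 1 := by ring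
  rw [e4] at ma
  rw [e5] at mb
  obtain ⟨g, hg⟩ := h.right_unique ma mb
  have r := hi' (1 - g) (β - g) (1 - g * α) (by push_cast; linear_combination hg)
  have hg1 : g = 1 := by
    have := r.1
    exact (sub_eq_zero.mp this).symm
  subst hg1
  have hα : α = 1 := by
    have := r.2.2
    rw [one_mul] at this
    exact (sub_eq_zero.mp this).symm
  subst hα
  simp only [OneMemClass.coe_one, one_mul] at ma
  have e6 : sx + 1 + sy = sx + sy + 1 := by ring
  rw [e6] at ma
  refine ⟨?_, ma⟩
  have hxy : x + y ∉ F := by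
    intro hF
    have := hi (-⟨_, hF⟩) 1 1 (by push_cast; ring)
    simpa using this.2.1
  obtain ⟨δ, md⟩ := h.line 1 mc hxy
  obtain ⟨g, hg⟩ := h.right_unique ma md
  have r := hi' (δ - g) (1 - g) (γ - g) (by push_cast; linear_combination hg)
  have hg1 : g = 1 := (sub_eq_zero.mp r.2.1).symm
  subst hg1
  have hγ : γ = 1 := (sub_eq_zero.mp r.2.2)
  subst hγ
  simpa using mc

omit [Field L] h in
theorem Ind_add_not_mem {x y : K} (hi : Ind F x y) : x + y ∉ F := by
  intro hF
  have := hi (-⟨_, hF⟩) 1 1 (by push_cast; ring)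
  simpa using this.2.1

theorem rep_add {x y : K} (hi : Ind F x y) : h.rep (x + y) = h.rep x + h.rep y :=
  h.rep_eq (Ind_add_not_mem hi) (h.rep_add_aux hi).1 (h.rep_add_aux hi).2

/-- multiplicativity in the independent case -/
theorem rep_mul {x z : K} (hx : x ∉ F) (hi : Ind F z (x * z)) :
    h.rep (x * z) = h.rep x * h.rep z := by
  obtain ⟨mx, mx1⟩ := h.rep_spec hx
  obtain ⟨mz, mz1⟩ := h.rep_spec hi.left
  obtain ⟨mw, mw1⟩ := h.rep_spec hi.right
  have hxG := h.not_mem_right mx hx
  have m1 := (h.rep_add_aux hi.symm).1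
  have m2 := h.mul mx1 mz
  have e : (x + 1) * z = x * z + z := by ring
  rw [e] at m2
  have m3 := h.mul mx mz
  obtain ⟨g, hg⟩ := h.right_unique m3 mw
  obtain ⟨k, hk⟩ := h.right_unique m2 m1
  have hz : h.rep z ≠ 0 := h.right_ne mz
  have key : ((g : L) - k) * h.rep x + (1 - k) = 0 := by
    apply mul_right_cancel₀ hz
    linear_combination hk - hg
  have hgk : g = k := by
    by_contra hgk
    have hgk' : (g : L) - k ≠ 0 := by
      intro e
      apply hgk
      exact Subtype.ext (sub_eq_zero.mp e)
    apply hxG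
    have : h.rep x = (((k - 1) / (g - k) : G) : L) := by
      push_cast
      rw [eq_div_iff hgk']
      linear_combination key
    rw [this]
    exact SetLike.coe_mem _
  subst hgk
  have : (g : L) = 1 := by linear_combination -key
  rw [hg, this, one_mul]

/-- translation by elements of `F`: first form -/
theorem rep_add_mem_aux {x y : K} (hi : Ind F x y) (w : F) :
    ∃ α : G, h.rep (x + w) = h.rep x + α ∧ h.rep (y - w) = h.rep y - α := by
  have hi1 : Ind F (x + w) (y - w) := by
    intro a b c e
    have := hi (a + b * w - c * w) b c (by push_cast; linear_combination e)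
    obtain ⟨h1, h2, h3⟩ := this
    subst h2 h3
    simpa using h1
  have e1 := h.rep_add hi1
  have e2 := h.rep_add hi
  have e3 : x + w + (y - w) = x + y := by ring
  rw [e3, e2] at e1
  obtain ⟨mx, mx1⟩ := h.rep_spec hi.left
  obtain ⟨my, my1⟩ := h.rep_spec hi.right
  obtain ⟨mxw, -⟩ := h.rep_spec hi1.left
  obtain ⟨myw, -⟩ := h.rep_spec hi1.right
  obtain ⟨α, mα⟩ := h.line w mx hi.left
  obtain ⟨β, mβ⟩ := h.line (-w) my hi.right
  have e4 : y + ((-w : F) : K) = y - w := by push_cast; ring
  rw [e4] at mβ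
  obtain ⟨g, hg⟩ := h.right_unique mα mxw
  obtain ⟨k, hk⟩ := h.right_unique mβ myw
  have hi' := h.ind hi mx my
  have r := hi' (g * α + k * β) (g - 1) (k - 1) (by push_cast; linear_combination e1.symm - hg - hk)
  have hg1 : g = 1 := sub_eq_zero.mp r.2.1
  have hk1 : k = 1 := sub_eq_zero.mp r.2.2
  subst hg1 hk1
  have hβ : α + β = 0 := by simpa using r.1
  have hβ' : (α : L) + β = 0 := by exact_mod_cast congrArg Subtype.val hβ
  refine ⟨α, ?_, ?_⟩
  · rw [hg]; push_cast; ring
  · rw [hk]; push_cast; linear_combination hβ'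

/-- hypothesis: dimension at least three -/
theorem exists_trans (hd : ∀ x x' : K, x ∉ F → x' ∉ F → ∃ y, Ind F x y ∧ Ind F x' y) (w : F) :
    ∃ α : G, ∀ x, x ∉ F → h.rep (x + w) = h.rep x + α := by
  by_cases hex : ∃ x : K, x ∉ F
  · obtain ⟨x0, hx0⟩ := hex
    obtain ⟨y0, hy0, -⟩ := hd x0 x0 hx0 hx0
    obtain ⟨α0, ha0, -⟩ := h.rep_add_mem_aux hy0 w
    refine ⟨α0, fun x hx => ?_⟩
    obtain ⟨y, hy, hy'⟩ := hd x0 x hx0 hx
    obtain ⟨α, ha, hb⟩ := h.rep_add_mem_aux hy w
    obtain ⟨α', ha', hb'⟩ := h.rep_add_mem_aux hy' w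
    rw [ha'] 
    linear_combination hb' - hb - ha + ha0
  · push Not at hex
    exact ⟨0, fun x hx => absurd (hex x) hx⟩

theorem trans_add (hne : ∃ x : K, x ∉ F) {s : F → G}
    (hs : ∀ w : F, ∀ x, x ∉ F → h.rep (x + w) = h.rep x + s w) (v w : F) :
    (s (v + w) : L) = s v + s w := by
  obtain ⟨x, hx⟩ := hne
  have hxv : x + v ∉ F := fun hF => hx (by simpa using sub_mem hF (SetLike.coe_mem v))
  have e1 := hs w (x + v) hxv
  have e2 := hs v x hx
  have e3 := hs (v + w) x hx
  have e4 : x + ((v + w : F) : K) = x + v + w := by push_cast; ring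
  rw [e4] at e3
  linear_combination e1 + e2 - e3

theorem trans_one (hne : ∃ x : K, x ∉ F) {s : F → G}
    (hs : ∀ w : F, ∀ x, x ∉ F → h.rep (x + w) = h.rep x + s w) :
    (s 1 : L) = 1 := by
  obtain ⟨x, hx⟩ := hne
  have e1 := hs 1 x hx
  obtain ⟨mx, mx1⟩ := h.rep_spec hx
  have hx1 : x + ((1 : F) : K) ∉ F := fun hF => hx (by simpa using sub_mem hF (one_mem F))
  obtain ⟨mx', -⟩ := h.rep_spec hx1
  rw [OneMemClass.coe_one] at mx' e1
  obtain ⟨g, hg⟩ := h.right_unique mx1 mx'
  have hxG := h.not_mem_right mx hx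
  have key : ((g : L) - 1) * h.rep x + (g - s 1) = 0 := by
    linear_combination e1 - hg
  have hg1 : (g : L) = 1 := by
    by_contra hg1
    have hg1' : (g : L) - 1 ≠ 0 := sub_ne_zero.mpr hg1
    apply hxG
    have : h.rep x = (((s 1 - g) / (g - 1) : G) : L) := by
      push_cast
      rw [eq_div_iff hg1']
      linear_combination key
    rw [this]
    exact SetLike.coe_mem _
  rw [hg1] at key
  linear_combination -key

theorem trans_mul (hd : ∀ x x' : K, x ∉ F → x' ∉ F → ∃ y, Ind F x y ∧ Ind F x' y) {s : F → G}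
    (hs : ∀ w : F, ∀ x, x ∉ F → h.rep (x + w) = h.rep x + s w) (w : F) (hw : w ≠ 0)
    {z : K} (hz : z ∉ F) : h.rep (w * z) = s w * h.rep z := by
  obtain ⟨u, hu, -⟩ := hd z z hz hz
  have hz0 : z ≠ 0 := by rintro rfl; exact hz (zero_mem F)
  obtain ⟨x, rfl⟩ : ∃ x, u = x * z := ⟨u / z, by field_simp⟩
  have hx : x ∉ F := by
    intro hF
    have := hu 0 (⟨x, hF⟩) (-1) (by push_cast; ring)
    simpa using this.2.2
  have hxw : x + w ∉ F := fun hF => hx (by simpa using sub_mem hF (SetLike.coe_mem w))
  have i1 : Ind F z ((x + w) * z) := by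
    intro a b c e
    have := hu a (b + c * w) c (by push_cast; linear_combination e)
    obtain ⟨h1, h2, h3⟩ := this
    subst h1 h3
    simpa using h2
  have i2 : Ind F (x * z) (w * z) := by
    intro a b c e
    have := hu a (c * w) b (by push_cast; linear_combination e)
    obtain ⟨h1, h2, h3⟩ := this
    subst h1 h3
    refine ⟨rfl, rfl, ?_⟩
    rcases mul_eq_zero.mp h2 with h2 | h2
    · exact h2
    · exact absurd h2 hw
  have e1 := h.rep_mul hxw i1
  have e2 := h.rep_mul hx hu
  have e3 := h.rep_add i2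
  have e4 := hs w x hx
  have e5 : x * z + w * z = (x + w) * z := by ring
  rw [e5] at e3
  rw [e3, e4, e2] at e1
  linear_combination e1

/-- the general additivity of the extended map -/
theorem exists_addHom (hd : ∀ x x' : K, x ∉ F → x' ∉ F → ∃ y, Ind F x y ∧ Ind F x' y)
    (hne : ∃ x : K, x ∉ F) :
    ∃ σ : K →+ L, (∀ x, x ∉ F → σ x = h.rep x) ∧ (∀ x, x ∈ F → σ x ∈ G) ∧ σ 1 = 1 ∧
      (∀ w z, w ∈ F → z ∉ F → σ (w * z) = σ w * σ z) := by
  classical
  choose s hs using fun w => h.exists_trans hd w
  have sadd := h.trans_add hne hs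
  have sone := h.trans_one hne hs
  have s0 : (s 0 : L) = 0 := by
    have := sadd 0 0
    rw [add_zero] at this
    linear_combination -this
  have sneg : (s (-1) : L) = -1 := by
    have := sadd 1 (-1)
    rw [add_neg_cancel, s0, sone] at this
    linear_combination -this
  have smul : ∀ w : F, ∀ z, z ∉ F → w ≠ 0 → h.rep (w * z) = s w * h.rep z :=
    fun w z hz hw => h.trans_mul hd hs w hw hz
  let σ : K → L := fun x => if hx : x ∈ F then (s ⟨x, hx⟩ : L) else h.rep x
  have σF : ∀ w : F, σ w = s w := by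
    intro w
    simp only [σ]
    rw [dif_pos (SetLike.coe_mem w)]
  have σnF : ∀ x, x ∉ F → σ x = h.rep x := by
    intro x hx
    simp only [σ]
    rw [dif_neg hx]
  have add1 : ∀ x, ∀ w : F, σ (x + w) = σ x + σ w := by
    intro x w
    by_cases hx : x ∈ F
    · obtain ⟨x, rfl⟩ : ∃ x' : F, (x' : K) = x := ⟨⟨x, hx⟩, rfl⟩
      have : (x : K) + w = ((x + w : F) : K) := by push_cast; ring
      rw [this, σF, σF, σF, sadd]
    · have hxw : x + w ∉ F := fun hF => hx (by simpa using sub_mem hF (SetLike.coe_mem w))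
      rw [σnF x hx, σnF _ hxw, σF, hs w x hx]
  have σmul : ∀ w : F, ∀ z, z ∉ F → σ (w * z) = σ w * σ z := by
    intro w z hz
    by_cases hw : w = 0
    · subst hw
      have : ((0 : F) : K) * z = ((0 : F) : K) := by simp
      rw [this, σF, s0, zero_mul]
    · have hw' : (w : K) ≠ 0 := by simpa using hw
      have hwz : (w : K) * z ∉ F := by
        intro hF
        apply hz
        have : z = ((w⁻¹ * ⟨_, hF⟩ : F) : K) := by push_cast; field_simp
        rw [this]
        exact SetLike.coe_mem _
      rw [σnF _ hwz, σnF z hz, σF, smul w z hz hw]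
  have add2 : ∀ x y, σ (x + y) = σ x + σ y := by
    intro x y
    by_cases hx : x ∈ F
    · obtain ⟨x, rfl⟩ : ∃ x' : F, (x' : K) = x := ⟨⟨x, hx⟩, rfl⟩
      rw [add_comm, add1, add_comm]
    by_cases hi : Ind F x y
    · rw [σnF _ (Ind_add_not_mem hi), σnF x hx, σnF y hi.right, h.rep_add hi]
    · obtain ⟨a, b, rfl⟩ := not_ind_of hx hi
      have e1 : x + (a + b * x) = ((1 + b : F) : K) * x + a := by push_cast; ring
      have e2 : (a : K) + b * x = b * x + a := by ring
      rw [e1, add1, σmul _ _ hx, e2, add1, σmul _ _ hx, σF, σF, σF, sadd, sone]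
      ring
  refine ⟨AddMonoidHom.mk' σ add2, fun x hx => σnF x hx, ?_, ?_, ?_⟩
  · intro x hx
    have := σF ⟨x, hx⟩
    simp only [AddMonoidHom.mk'_apply] at this ⊢
    rw [this]
    exact SetLike.coe_mem _
  · have := σF 1
    simp only [AddMonoidHom.mk'_apply]
    rw [OneMemClass.coe_one] at this
    rw [this, sone]
  · intro w z hw hz
    exact σmul ⟨w, hw⟩ z hz

theorem exists_ringHom (hd : ∀ x x' : K, x ∉ F → x' ∉ F → ∃ y, Ind F x y ∧ Ind F x' y)
    (hne : ∃ x : K, x ∉ F) :
    ∃ σ : K →+* L, ∀ x, x ∉ F → σ x = h.rep x := by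
  obtain ⟨σ, σnF, σF, σ1, σmul⟩ := h.exists_addHom hd hne
  -- a subgroup containing the complement of a proper subgroup is everything
  have mul1 : ∀ y, y ∉ F → ∀ x, σ (x * y) = σ x * σ y := by
    intro y hy
    have hy0 : y ≠ 0 := by rintro rfl; exact hy (zero_mem F)
    have hyi : y⁻¹ ∉ F := fun hF => hy (by simpa using inv_mem hF)
    have key : ∀ x, x ∉ F → Ind F y (x * y) → σ (x * y) = σ x * σ y := by
      intro x hx hi
      rw [σnF _ hi.right, σnF x hx, σnF y hy, h.rep_mul hx hi]
    obtain ⟨t, ht, ht'⟩ := hd (y⁻¹) (y⁻¹) hyi hyi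
    have hgen : ∀ x, (∀ a b : F, x ≠ a + b * y⁻¹) → σ (x * y) = σ x * σ y := by
      intro x hx
      apply key
      · intro hF
        exact hx ⟨x, hF⟩ 0 (by simp)
      · apply ind_of hy
        intro a b e
        apply hx b a
        field_simp
        linear_combination e
    intro x
    by_cases hx : ∀ a b : F, x ≠ a + b * y⁻¹
    · exact hgen x hx
    · push Not at hx
      obtain ⟨a, b, hab⟩ := hx
      have e1 := hgen t (by
        intro a b e
        have := ht a b (-1) (by push_cast; rw [← e]; ring)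
        simpa using this.2.2)
      have e2 := hgen (x + t) (by
        intro a' b' e
        have := ht (a' - a) (b' - b) (-1) (by
          push_cast
          linear_combination hab - e)
        simpa using this.2.2)
      rw [add_mul, map_add, map_add, e1] at e2
      linear_combination e2
  have mul2 : ∀ x y, σ (x * y) = σ x * σ y := by
    intro x y
    by_cases hy : y ∈ F
    · obtain ⟨z, hz⟩ := hne
      have hzy : z + y ∉ F := fun hF => hz (by simpa using sub_mem hF hy)
      have e1 := mul1 z hz x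
      have e2 := mul1 _ hzy x
      rw [mul_add, map_add, map_add, e1] at e2
      linear_combination e2
    · exact mul1 y hy x
  refine ⟨{ σ with map_one' := σ1, map_mul' := mul2, map_zero' := map_zero σ }, ?_⟩
  intro x hx
  exact σnF x hx

theorem exists_ringEquiv (hd : ∀ x x' : K, x ∉ F → x' ∉ F → ∃ y, Ind F x y ∧ Ind F x' y)
    (hne : ∃ x : K, x ∉ F) :
    ∃ σ : K ≃+* L, ∀ x, x ≠ 0 → M x (σ x) := by
  obtain ⟨σ, hσ⟩ := h.exists_ringHom hd hne
  have hσM : ∀ x, x ∉ F → M x (σ x) := by
    intro x hx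
    rw [hσ x hx]
    exact (h.rep_spec hx).1
  have surj1 : ∀ y, y ∉ G → ∃ x, σ x = y := by
    intro y hy
    have hy0 : y ≠ 0 := by rintro rfl; exact hy (zero_mem G)
    obtain ⟨x0, m0⟩ := h.exists_left hy0
    have hx0 : x0 ∉ F := h.not_mem_left m0 hy
    obtain ⟨a, -, m1⟩ := h.swap.line_general m0 h.one (by simpa using hy)
    have ha0 : a ≠ 0 := by
      rintro rfl
      simp only [ZeroMemClass.coe_zero, zero_mul, add_zero] at m1
      obtain ⟨g, hg⟩ := h.right_unique m0 m1
      have hg1 : (g : L) ≠ 1 := by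
        intro e
        rw [e, one_mul] at hg
        simp at hg
      apply hy
      have hg1' : (g : L) - 1 ≠ 0 := sub_ne_zero.mpr hg1
      have : y = ((1 / (g - 1) : G) : L) := by
        push_cast
        rw [eq_div_iff hg1']
        linear_combination -hg
      rw [this]
      exact SetLike.coe_mem _
    have ha0' : (a : K) ≠ 0 := by simpa using ha0
    have m2 := h.smul_left (a⁻¹) m0 (inv_ne_zero ha0)
    have m3 := h.smul_left (a⁻¹) m1 (inv_ne_zero ha0)
    have hx1 : ((a⁻¹ : F) : K) * x0 ∉ F := h.not_mem_left m2 hy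
    refine ⟨((a⁻¹ : F) : K) * x0, ?_⟩
    rw [hσ _ hx1]
    apply h.rep_eq hx1 m2
    convert m3 using 1
    push_cast
    field_simp
  have surj : Function.Surjective σ := by
    intro y
    by_cases hy : y ∈ G
    · obtain ⟨x, hx⟩ := hne
      have hz : σ x ∉ G := h.not_mem_right (hσM x hx) hx
      have hyz : y + σ x ∉ G := fun hG => hz (by simpa using sub_mem hG hy)
      obtain ⟨x1, hx1⟩ := surj1 _ hyz
      exact ⟨x1 - x, by rw [map_sub, hx1]; ring⟩
    · exact surj1 y hy
  have inj : Function.Injective σ := σ.injective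
  refine ⟨RingEquiv.ofBijective σ ⟨inj, surj⟩, ?_⟩
  intro x hx
  change M x (σ x)
  by_cases hxF : x ∈ F
  · obtain ⟨z, hz⟩ := hne
    have hz0 : z ≠ 0 := by rintro rfl; exact hz (zero_mem F)
    have hxz : x * z ∉ F := by
      intro hF
      apply hz
      have : z = x⁻¹ * (x * z) := by field_simp
      rw [this]
      exact mul_mem (inv_mem hxF) hF
    have m1 := hσM _ hxz
    have m2 := h.inv (hσM z hz)
    have m3 := h.mul m1 m2
    have hσz : σ z ≠ 0 := by
      intro e
      exact hz0 (inj (by rw [e, map_zero]))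
    rw [map_mul] at m3
    convert m3 using 1
    · field_simp
    · field_simp
  · exact hσM x hxF

end ProjRel

end Crest.Agent.Row9
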