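import Mathlib
import Crest.Prelude.Def_MilnorK
import Crest.Agent.Row9.Core
import Crest.Agent.Row9.FTPG

set_option autoImplicit false

open Polynomial TensorProduct
open Crest.NumberTheoryR.MilnorK

namespace Crest.Agent.Row9

section one

variable {L : Type*} [Field L] {p : ℕ} [Fact p.Prime] [CharP L p]

/-- logarithmic derivative on units -/
noncomputable def dlu (D : Derivation ℤ L L) : Additive Lˣ →+ L where
  toFun u := D ((u.toMul : Lˣ) : L) / ((u.toMul : Lˣ) : L)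
  map_zero' := by simp
  map_add' u v := by
    have hu : ((u.toMul : Lˣ) : L) ≠ 0 := u.toMul.ne_zero
    have hv : ((v.toMul : Lˣ) : L) ≠ 0 := v.toMul.ne_zero
    rw [toMul_add, Units.val_mul, Derivation.leibniz]
    simp only [smul_eq_mul]
    field_simp
    ring

/-- logarithmic derivative on `K₁/p` -/
noncomputable def dl (p : ℕ) [Fact p.Prime] [CharP L p] (D : Derivation ℤ L L) : KOne L p →+ L :=
  QuotientAddGroup.lift (pMultiples L p) (dlu D) (by
    rintro u ⟨v, rfl⟩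
    change dlu D (p • v) = 0
    rw [map_nsmul, nsmul_eq_mul, CharP.cast_eq_zero, zero_mul])

theorem dl_cls (D : Derivation ℤ L L) (u : Lˣ) : dl p D (cls L p u) = D (u : L) / u := rfl

theorem zsmul_eq (r : ZMod p) (M : Type*) [AddCommGroup M] [Module (ZMod p) M] (x : M) :
    r • x = r.val • x := by
  conv_lhs => rw [← ZMod.natCast_zmod_val r]
  rw [Nat.cast_smul_eq_nsmul]

/-- the functional `dlog ∧ dlog` -/
noncomputable def phi (p : ℕ) [Fact p.Prime] [CharP L p] (D1 D2 : Derivation ℤ L L) :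
    (KOne L p ⊗[ZMod p] KOne L p) →+ L :=
  TensorProduct.liftAddHom
    ((AddMonoidHom.mul.comp (dl p D1)).compl₂ (dl p D2)
      - (AddMonoidHom.mul.comp (dl p D2)).compl₂ (dl p D1))
    (by
      intro r m n
      rw [zsmul_eq r _ m, zsmul_eq r _ n]
      simp [mul_comm, mul_left_comm])

theorem phi_tmul (D1 D2 : Derivation ℤ L L) (a b : KOne L p) :
    phi p D1 D2 (a ⊗ₜ b) = dl p D1 a * dl p D2 b - dl p D2 a * dl p D1 b := rfl

theorem phi_steinberg (D1 D2 : Derivation ℤ L L) {t : KOne L p ⊗[ZMod p] KOne L p}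
    (ht : t ∈ steinberg L p) : phi p D1 D2 t = 0 := by
  unfold steinberg at ht
  induction ht using Submodule.span_induction with
  | mem t ht =>
    obtain ⟨f, hf, hf1, rfl⟩ := ht
    rw [phi_tmul, dl_cls, dl_cls, dl_cls, dl_cls]
    simp only [Units.val_mk0, map_sub, Derivation.map_one_eq_zero]
    field_simp
    ring
  | zero => exact map_zero _
  | add x y _ _ hx hy => rw [map_add, hx, hy, add_zero]
  | smul r x _ hx => rw [zsmul_eq r _ x, map_nsmul, hx, smul_zero]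

open Classical in
/-- class of a nonzero element -/
noncomputable def kc (p : ℕ) (x : L) : KOne L p :=
  if h : x ≠ 0 then cls L p (Units.mk0 x h) else 0

theorem kc_of_ne {x : L} (h : x ≠ 0) : kc p x = cls L p (Units.mk0 x h) := by
  unfold kc; rw [dif_pos h]

theorem kc_units (u : Lˣ) : kc p (u : L) = cls L p u := by
  rw [kc_of_ne u.ne_zero, Units.mk0_val]

theorem cls_mul (u v : Lˣ) : cls L p (u * v) = cls L p u + cls L p v := rfl

theorem kc_mul {x y : L} (hx : x ≠ 0) (hy : y ≠ 0) : kc p (x * y) = kc p x + kc p y := by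
  rw [kc_of_ne hx, kc_of_ne hy, kc_of_ne (mul_ne_zero hx hy), ← cls_mul]
  congr 1
  ext
  rfl

theorem aux_self_add {A : Type*} [AddCommGroup A] (a : A) (h : a = a + a) : a = 0 := by
  simpa using h

theorem kc_one : kc p (1 : L) = 0 := by
  have := kc_mul (p := p) (one_ne_zero (α := L)) one_ne_zero
  rw [mul_one] at this
  exact aux_self_add _ this

theorem kc_inv {x : L} (hx : x ≠ 0) : kc p x⁻¹ = - kc p x := by
  have := kc_mul (p := p) hx (inv_ne_zero hx)
  rw [mul_inv_cancel₀ hx, kc_one] at this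
  exact (neg_eq_of_add_eq_zero_right this.symm).symm

theorem kc_div {x y : L} (hx : x ≠ 0) (hy : y ≠ 0) : kc p (x / y) = kc p x - kc p y := by
  rw [div_eq_mul_inv, kc_mul hx (inv_ne_zero hy), kc_inv hy, sub_eq_add_neg]

theorem kc_pow {x : L} (hx : x ≠ 0) (n : ℕ) : kc p (x ^ n) = n • kc p x := by
  induction n with
  | zero => rw [pow_zero, kc_one, zero_nsmul]
  | succ n ih => rw [pow_succ, kc_mul (pow_ne_zero n hx) hx, ih, succ_nsmul]

theorem kc_eq_zero_iff {x : L} (hx : x ≠ 0) : kc p x = 0 ↔ x ∈ Gp L p := by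
  rw [kc_of_ne hx]
  unfold cls
  rw [QuotientAddGroup.eq_zero_iff, mem_Gp]
  constructor
  · rintro ⟨v, hv⟩
    refine ⟨((v.toMul : Lˣ) : L), ?_⟩
    have := congrArg (fun w : Additive Lˣ => ((w.toMul : Lˣ) : L)) hv
    simpa using this
  · rintro ⟨y, rfl⟩
    have hy : y ≠ 0 := by
      rintro rfl
      exact hx (zero_pow (Fact.out : p.Prime).ne_zero)
    refine ⟨Additive.ofMul (Units.mk0 y hy), ?_⟩
    apply Additive.toMul.injective
    ext
    simp

theorem kc_eq_iff {x y : L} (hx : x ≠ 0) (hy : y ≠ 0) :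
    kc p x = kc p y ↔ ∃ g : Gp L p, x = g * y := by
  rw [← sub_eq_zero, ← kc_div hx hy, kc_eq_zero_iff (div_ne_zero hx hy)]
  constructor
  · intro h
    exact ⟨⟨_, h⟩, by field_simp⟩
  · rintro ⟨g, rfl⟩
    have : g * y / y = g := by field_simp
    rw [this]
    exact SetLike.coe_mem g

theorem kc_smul {g : Gp L p} (hg : g ≠ 0) {x : L} (hx : x ≠ 0) : kc p (g * x) = kc p x := by
  rw [kc_eq_iff (mul_ne_zero (by simpa using hg) hx) hx]
  exact ⟨g, rfl⟩

theorem kc_surj (t : KOne L p) : ∃ x : L, x ≠ 0 ∧ kc p x = t := by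
  obtain ⟨u, rfl⟩ := QuotientAddGroup.mk_surjective t
  refine ⟨((u.toMul : Lˣ) : L), u.toMul.ne_zero, ?_⟩
  rw [kc_units]
  rfl

theorem dl_kc (D : Derivation ℤ L L) {x : L} (hx : x ≠ 0) : dl p D (kc p x) = D x / x := by
  rw [kc_of_ne hx, dl_cls]
  rfl

end one

section two

variable {K L : Type*} [Field K] [Field L] {p : ℕ} [Fact p.Prime] [CharP K p] [CharP L p]

/-- `x'` represents the image of the class of `x` -/
def Rep (Θ : KOne K p ≃ₗ[ZMod p] KOne L p) (x : K) (x' : L) : Prop :=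
  x ≠ 0 ∧ x' ≠ 0 ∧ Θ (kc p x) = kc p x'

variable {Θ : KOne K p ≃ₗ[ZMod p] KOne L p}

theorem Rep.mul {x y : K} {x' y' : L} (hx : Rep Θ x x') (hy : Rep Θ y y') :
    Rep Θ (x * y) (x' * y') := by
  refine ⟨mul_ne_zero hx.1 hy.1, mul_ne_zero hx.2.1 hy.2.1, ?_⟩
  rw [kc_mul hx.1 hy.1, kc_mul hx.2.1 hy.2.1, map_add, hx.2.2, hy.2.2]

theorem Rep.inv {x : K} {x' : L} (hx : Rep Θ x x') : Rep Θ x⁻¹ x'⁻¹ := by
  refine ⟨inv_ne_zero hx.1, inv_ne_zero hx.2.1, ?_⟩
  rw [kc_inv hx.1, kc_inv hx.2.1, map_neg, hx.2.2]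

theorem Rep.div {x y : K} {x' y' : L} (hx : Rep Θ x x') (hy : Rep Θ y y') :
    Rep Θ (x / y) (x' / y') := by
  rw [div_eq_mul_inv, div_eq_mul_inv]
  exact hx.mul hy.inv

theorem Rep.symm {x : K} {x' : L} (hx : Rep Θ x x') : Rep Θ.symm x' x := by
  refine ⟨hx.2.1, hx.1, ?_⟩
  rw [LinearEquiv.symm_apply_eq, hx.2.2]

theorem Rep.mem {x : K} {x' : L} (hx : Rep Θ x x') : x ∈ Gp K p ↔ x' ∈ Gp L p := by
  rw [← kc_eq_zero_iff hx.1, ← kc_eq_zero_iff hx.2.1, ← hx.2.2]
  exact (map_eq_zero_iff _ Θ.injective).symm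

theorem exists_Rep (Θ : KOne K p ≃ₗ[ZMod p] KOne L p) {x : K} (hx : x ≠ 0) : ∃ x', Rep Θ x x' := by
  obtain ⟨y, hy, e⟩ := kc_surj (Θ (kc p x))
  exact ⟨y, hx, hy, e.symm⟩

theorem exists_Rep' (Θ : KOne K p ≃ₗ[ZMod p] KOne L p) {y : L} (hy : y ≠ 0) : ∃ x, Rep Θ x y := by
  obtain ⟨x, hx⟩ := exists_Rep Θ.symm hy
  exact ⟨x, hx.symm⟩

theorem compat_symm (hΘ : IsCompatible Θ) : IsCompatible Θ.symm := by
  unfold IsCompatible at *
  rw [← hΘ, ← Submodule.map_comp, ← TensorProduct.map_comp]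
  have : Θ.symm.toLinearMap ∘ₗ Θ.toLinearMap = LinearMap.id := by
    ext; simp
  rw [this, TensorProduct.map_id, Submodule.map_id]

/-- The basic consequence of compatibility. -/
theorem rel_of (hΘ : IsCompatible Θ) {u v : K} {u' v' : L} (hu : Rep Θ u u') (hv : Rep Θ v v')
    {a b : Gp K p} (ha : a ≠ 0) (hb : b ≠ 0) (hab : a * u + b * v = 1) (D1 D2 : Derivation ℤ L L) :
    D1 u' * D2 v' = D2 u' * D1 v' := by
  have ha' : (a : K) ≠ 0 := by simpa using ha
  have hb' : (b : K) ≠ 0 := by simpa using hb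
  have hf : (a : K) * u ≠ 0 := mul_ne_zero ha' hu.1
  have hf1 : 1 - (a : K) * u ≠ 0 := by
    have : 1 - (a : K) * u = b * v := by linear_combination -hab
    rw [this]
    exact mul_ne_zero hb' hv.1
  have hmem : (kc p u) ⊗ₜ[ZMod p] (kc p v) ∈ steinberg K p := by
    apply Submodule.subset_span
    refine ⟨a * u, hf, hf1, ?_⟩
    rw [← kc_of_ne hf, ← kc_of_ne hf1, kc_smul ha hu.1]
    have : 1 - (a : K) * u = b * v := by linear_combination -hab
    rw [this, kc_smul hb hv.1]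
  have hmem' : (kc p u') ⊗ₜ[ZMod p] (kc p v') ∈ steinberg L p := by
    unfold IsCompatible at hΘ
    rw [← hΘ]
    refine ⟨_, hmem, ?_⟩
    rw [TensorProduct.map_tmul, ← hu.2.2, ← hv.2.2]
    rfl
  have h0 := phi_steinberg D1 D2 hmem'
  have hu0 := hu.2.1
  have hv0 := hv.2.1
  rw [phi_tmul, dl_kc D1 hu0, dl_kc D2 hu0, dl_kc D1 hv0, dl_kc D2 hv0] at h0
  field_simp at h0
  linear_combination h0

theorem mem_Gx_of_rel {x q : L} (hx : x ∉ Gp L p)
    (h : ∀ D1 D2 : Derivation ℤ L L, D1 x * D2 q = D2 x * D1 q) : q ∈ Gx p x := by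
  by_contra hq
  obtain ⟨D1, h1, -⟩ := exists_deriv (le_refl (Gp L p)) hx
  obtain ⟨D2, h2, h2'⟩ := exists_deriv (Gp_le_Gx x) hq
  have := h D1 D2
  rw [h1, h2, h2' x (self_mem_Gx x)] at this
  simp at this

theorem exchange {x y : L} (hx : x ∉ Gp L p) (hy : y ∉ Gx p x) : x ∉ Gx p y := by
  intro h
  obtain ⟨D, h1, h2⟩ := exists_euler (Gp_le_Gx x) hy
  have hyG : y ∉ Gp L p := fun h => hy (Gp_le_Gx x h)
  exact hx (mem_Gp_of_D_eq_zero D hyG h1 h (h2 x (self_mem_Gx x)))

/-- `1, x, x^j` are independent -/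
theorem not_line_pow {x : K} (hx : x ∉ Gp K p) {a f : Gp K p} (ha : a ≠ 0) {j : ℕ} (hj2 : 2 ≤ j)
    (hj : j < p) : x + a ≠ f * x ^ j := by
  intro h
  have h1 : aeval x (X + C a - C f * X ^ j : (Gp K p)[X]) = 0 := by
    rw [map_sub, map_add, map_mul, map_pow, aeval_X, aeval_C, aeval_C]
    change x + a - f * x ^ j = 0
    rw [h]; ring
  have h2 : (X + C a - C f * X ^ j : (Gp K p)[X]).natDegree < p := by
    apply lt_of_le_of_lt _ hj
    compute_degree
    omega
  have h3 := aeval_eq_zero hx h2 h1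
  have h4 := congrArg (fun g => g.coeff 0) h3
  simp only [coeff_sub, coeff_add, coeff_X_zero, coeff_C_zero, coeff_C_mul, coeff_X_pow,
    coeff_zero] at h4
  rw [if_neg (by omega)] at h4
  apply ha
  linear_combination h4

theorem step3 (hΘ : IsCompatible Θ) {x y : K} {x' y' q r : L} {a b : Gp K p} (ha : a ≠ 0)
    (hb : b ≠ 0) (hx : x ∉ Gp K p) (hxx' : Rep Θ x x') (hyy' : Rep Θ y y')
    (hq : Rep Θ (x + a) q) (hr : Rep Θ (y + b) r) (hyx : y' ∉ Gx p x') :
    ∃ c, 1 ≤ c ∧ c < p ∧ Tw p c x' q ∧ Tw p c y' r := by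
  have ha' : (a : K) ≠ 0 := by simpa using ha
  have hb' : (b : K) ≠ 0 := by simpa using hb
  have hx'G : x' ∉ Gp L p := fun h => hx (hxx'.mem.mpr h)
  have hxy : x' ∉ Gx p y' := exchange hx'G hyx
  have hy'G : y' ∉ Gp L p := fun h => hyx (Gp_le_Gx x' h)
  have hy : y ∉ Gp K p := fun h => hy'G (hyy'.mem.mp h)
  have hx0 : x ≠ 0 := hxx'.1
  have hy0 : y ≠ 0 := hyy'.1
  have hxyG : x / y ∉ Gp K p := by
    intro h
    rw [(hxx'.div hyy').mem] at h
    apply hxy
    have : x' = (x' / y') * y' := by have := hyy'.2.1; field_simp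
    rw [this]
    exact mul_mem (Gp_le_Gx y' h) (self_mem_Gx y')
  obtain ⟨c0, hc0⟩ : ∃ c0 : Gp K p, c0 = a / b := ⟨_, rfl⟩
  have hc0' : (c0 : K) = a / b := by rw [hc0]; push_cast; rfl
  have hc00 : c0 ≠ 0 := by rw [hc0]; exact div_ne_zero ha hb
  have hc00' : (c0 : K) ≠ 0 := by simpa using hc00
  have hz0 : x - c0 * y ≠ 0 := by
    intro h
    apply hxyG
    have : x / y = c0 := by field_simp; linear_combination h
    rw [this]
    exact SetLike.coe_mem c0
  obtain ⟨z', hz⟩ := exists_Rep Θ hz0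
  have hxa0 : x + a ≠ 0 := hq.1
  have hyb0 : y + b ≠ 0 := hr.1
  have key := core (p := p) (x := x') (y := y') (q := q) (r := r) (z := z') hxy hyx ?_ ?_ ?_ ?_ ?_ ?_
    hz.2.1 ?_ ?_
  · rcases key with h | ⟨j, hj2, hj, g, hg, hqj⟩
    · exact h
    · exfalso
      have h1 : kc p q = j • kc p x' := by
        rw [hqj, kc_smul hg (pow_ne_zero j hxx'.2.1), kc_pow hxx'.2.1]
      rw [← hq.2.2, ← hxx'.2.2, ← map_nsmul, ← kc_pow hx0] at h1
      have h2 := Θ.injective h1
      rw [kc_eq_iff hxa0 (pow_ne_zero j hx0)] at h2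
      obtain ⟨f, hf⟩ := h2
      exact not_line_pow hx ha hj2 hj hf
  · -- q ∈ Gx x'
    apply mem_Gx_of_rel hx'G
    apply rel_of hΘ hxx' hq (a := -(1 / a)) (b := 1 / a)
    · simpa using ha
    · simpa using ha
    · push_cast; field_simp; ring
  · intro h
    apply hx
    rw [← hq.mem] at h
    simpa using sub_mem h (SetLike.coe_mem a)
  · intro h
    rw [← (hq.div hxx').mem] at h
    apply hx
    have h1 : x = (((a / (⟨_, h⟩ - 1) : Gp K p)) : K) := by
      have h2 : (x + a) / x - 1 ≠ 0 := by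
        intro h3
        field_simp at h3
        apply ha'
        linear_combination h3
      push_cast
      rw [eq_div_iff h2]
      field_simp
      ring
    rw [h1]
    exact SetLike.coe_mem _
  · apply mem_Gx_of_rel hy'G
    apply rel_of hΘ hyy' hr (a := -(1 / b)) (b := 1 / b)
    · simpa using hb
    · simpa using hb
    · push_cast; field_simp; ring
  · intro h
    apply hy
    rw [← hr.mem] at h
    simpa using sub_mem h (SetLike.coe_mem b)
  · intro h
    rw [← (hr.div hyy').mem] at h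
    apply hy
    have h1 : y = (((b / (⟨_, h⟩ - 1) : Gp K p)) : K) := by
      have h2 : (y + b) / y - 1 ≠ 0 := by
        intro h3
        field_simp at h3
        apply hb'
        linear_combination h3
      push_cast
      rw [eq_div_iff h2]
      field_simp
      ring
    rw [h1]
    exact SetLike.coe_mem _
  · have h1 := hxx'.div hyy'
    have h2 := hz.div hyy'
    apply mem_Gx_of_rel
    · intro h; exact hxyG (h1.mem.mpr h)
    · apply rel_of hΘ h1 h2 (a := 1 / c0) (b := -(1 / c0))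
      · simpa using hc00
      · simpa using hc00
      · push_cast; field_simp; ring
  · have h1 := hz.div hr
    have h2 := hq.div hr
    apply rel_of hΘ h1 h2 (a := -(1 / c0)) (b := 1 / c0)
    · simpa using hc00
    · simpa using hc00
    · push_cast
      rw [hc0']
      field_simp
      ring


theorem exists_poly {x : K} (hx : x ∉ Gp K p) {m : ℕ} (hm1 : 1 ≤ m) (hm : m < p) {g f β : Gp K p}
    (h : (x + 1) ^ m = f * (g * x ^ m + β)) : m = 1 := by
  by_contra hne
  have h1 : aeval x ((X + 1) ^ m - C (f * g) * X ^ m - C (f * β) : (Gp K p)[X]) = 0 := by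
    rw [map_sub, map_sub, map_mul, map_pow, map_pow, map_add, aeval_X, aeval_C, aeval_C, map_one, h]
    change f * (g * x ^ m + β) - (((f * g : Gp K p)) : K) * x ^ m - (((f * β : Gp K p)) : K) = 0
    push_cast; ring
  have h2 : ((X + 1) ^ m - C (f * g) * X ^ m - C (f * β) : (Gp K p)[X]).natDegree < p := by
    apply lt_of_le_of_lt _ hm
    compute_degree
  have h3 := aeval_eq_zero hx h2 h1
  have h4 := congrArg (fun g => g.coeff 1) h3
  simp only [coeff_sub, coeff_X_add_one_pow, coeff_C_mul, coeff_X_pow, coeff_zero] at h4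
  rw [if_neg (Ne.symm hne), coeff_C, if_neg one_ne_zero, Nat.choose_one_right] at h4
  have h5 : (m : Gp K p) = 0 := by linear_combination h4
  have h6 := CharP.natCast_injOn_Iio (Gp K p) p hm (Fact.out : p.Prime).pos
    (by rw [h5, Nat.cast_zero])
  omega

/-- hypothesis: `[L : L^p] > p` in a convenient form -/
def BigDim (p : ℕ) (L : Type*) [Field L] [Fact p.Prime] [CharP L p] : Prop :=
  ∀ x x' : L, ∃ y, y ∉ Gx p x ∧ y ∉ Gx p x'

theorem global_c (hΘ : IsCompatible Θ) (hL : BigDim p L) :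
    ∃ c : ℕ, 1 ≤ c ∧ c < p ∧ ∀ (x : K) (a : Gp K p) (x' q : L), x ∉ Gp K p → a ≠ 0 →
      Rep Θ x x' → Rep Θ (x + a) q → Tw p c x' q := by
  have hp : p.Prime := Fact.out
  have h1ne : (1 : Gp K p) ≠ 0 := one_ne_zero
  by_cases hex : ∃ x : K, x ∉ Gp K p
  · obtain ⟨x0, hx0⟩ := hex
    have hx00 : x0 ≠ 0 := by rintro rfl; exact hx0 (zero_mem _)
    have hx1 : x0 + ((1 : Gp K p) : K) ≠ 0 := by
      intro h
      apply hx0
      have : x0 = ((-1 : Gp K p) : K) := by push_cast; push_cast at h; linear_combination h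
      rw [this]; exact SetLike.coe_mem _
    obtain ⟨x0', h0⟩ := exists_Rep Θ hx00
    obtain ⟨q0, h0q⟩ := exists_Rep Θ hx1
    have step : ∀ (x : K) (a : Gp K p) (x' q : L), x ∉ Gp K p → a ≠ 0 →
      Rep Θ x x' → Rep Θ (x + a) q → ∃ c, 1 ≤ c ∧ c < p ∧ Tw p c x0' q0 ∧ Tw p c x' q := by
      intro x a x' q hx ha hxx' hq
      obtain ⟨y', hy0, hy1⟩ := hL x0' x'
      have hy'G : y' ∉ Gp L p := fun h => hy0 (Gp_le_Gx _ h)
      have hy'0 : y' ≠ 0 := by rintro rfl; exact hy'G (zero_mem _)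
      obtain ⟨y, hy⟩ := exists_Rep' Θ hy'0
      have hyG : y ∉ Gp K p := fun h => hy'G (hy.mem.mp h)
      have hy1' : y + ((1 : Gp K p) : K) ≠ 0 := by
        intro h
        apply hyG
        have : y = ((-1 : Gp K p) : K) := by push_cast; push_cast at h; linear_combination h
        rw [this]; exact SetLike.coe_mem _
      obtain ⟨r, hr⟩ := exists_Rep Θ hy1'
      obtain ⟨c, hc1, hc, t1, t2⟩ := step3 hΘ h1ne h1ne hx0 h0 hy h0q hr hy0
      obtain ⟨d, hd1, hd, s1, s2⟩ := step3 hΘ ha h1ne hx hxx' hy hq hr hy1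
      have hcd : c = d := Tw_unique hy'G hr.2.1 hc1 hc hd1 hd t2 s2
      subst hcd
      exact ⟨c, hc1, hc, t1, s1⟩
    obtain ⟨c, hc1, hc, t1, -⟩ := step x0 1 x0' q0 hx0 h1ne h0 h0q
    refine ⟨c, hc1, hc, ?_⟩
    intro x a x' q hx ha hxx' hq
    obtain ⟨d, hd1, hd, s1, s2⟩ := step x a x' q hx ha hxx' hq
    have hx0'G : x0' ∉ Gp L p := fun h => hx0 (h0.mem.mpr h)
    have hcd : c = d := Tw_unique hx0'G h0q.2.1 hc1 hc hd1 hd t1 s1
    subst hcd
    exact s2
  · push Not at hex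
    exact ⟨1, le_refl 1, hp.one_lt, fun x a x' q hx => absurd (hex x) hx⟩

theorem natCast_zmod_ne_zero {c : ℕ} (hc1 : 1 ≤ c) (hc : c < p) : (c : ZMod p) ≠ 0 := by
  intro h
  rw [ZMod.natCast_eq_zero_iff] at h
  exact absurd (Nat.le_of_dvd (by omega) h) (by omega)

/-- line preservation -/
def LP (Θ : KOne K p ≃ₗ[ZMod p] KOne L p) : Prop :=
  ∀ (x : K) (y : L) (a : Gp K p), x ∉ Gp K p → Rep Θ x y → ∃ α : Gp L p, Rep Θ (x + a) (y + α)

theorem exists_LP (hΘ : IsCompatible Θ) (hL : BigDim p L) :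
    ∃ c : ZMod p, ∃ hc : c ≠ 0,
      LP (Θ.trans (LinearEquiv.smulOfNeZero (ZMod p) (KOne L p) c hc)) := by
  obtain ⟨c, hc1, hc, h⟩ := global_c hΘ hL
  refine ⟨c, natCast_zmod_ne_zero hc1 hc, ?_⟩
  intro x y a hx hxy
  by_cases ha : a = 0
  · subst ha
    exact ⟨0, by simpa using hxy⟩
  have hx0 : x ≠ 0 := hxy.1
  have hxa : x + a ≠ 0 := by
    intro h
    apply hx
    have : x = ((-a : Gp K p) : K) := by push_cast; linear_combination h
    rw [this]; exact SetLike.coe_mem _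
  obtain ⟨x', hx'⟩ := exists_Rep Θ hx0
  obtain ⟨q, hq⟩ := exists_Rep Θ hxa
  obtain ⟨g, α, hg, hα, e⟩ := h x a x' q hx ha hx' hq
  have hy := hxy.2.2
  have e1 : ∀ t : KOne K p, (Θ.trans (LinearEquiv.smulOfNeZero (ZMod p) (KOne L p) (c : ZMod p)
      (natCast_zmod_ne_zero hc1 hc))) t = c • Θ t := by
    intro t
    change (c : ZMod p) • Θ t = c • Θ t
    rw [Nat.cast_smul_eq_nsmul]
  rw [e1, hx'.2.2, ← kc_pow hx'.2.1] at hy
  have hx'c := pow_ne_zero c hx'.2.1
  obtain ⟨k, hk⟩ := (kc_eq_iff hxy.2.1 hx'c).mp hy.symm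
  have hk0 : (k : L) ≠ 0 := by
    intro h
    rw [h, zero_mul] at hk
    exact hxy.2.1 hk
  have hg0 : (g : L) ≠ 0 := by simpa using hg
  have hsum : y + ((k * α : Gp L p) : L) = ((k / g : Gp L p) : L) * q ^ c := by
    push_cast
    rw [hk, e]
    field_simp
  have hqc : q ^ c ≠ 0 := pow_ne_zero c hq.2.1
  have hkg : k / g ≠ 0 := div_ne_zero (by simpa using hk0) hg
  refine ⟨k * α, hxa, ?_, ?_⟩
  · rw [hsum]
    exact mul_ne_zero (by simpa using hkg) hqc
  · rw [e1, hsum, kc_smul hkg hqc, kc_pow hq.2.1, hq.2.2]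

theorem Rep.trans_smul {x : K} {y : L} (h : Rep Θ x y) {M : Type*} [Field M] [CharP M p]
    {Θ' : KOne L p ≃ₗ[ZMod p] KOne M p} {z : M} (h' : Rep Θ' y z) : Rep (Θ.trans Θ') x z := by
  refine ⟨h.1, h'.2.1, ?_⟩
  rw [LinearEquiv.trans_apply, h.2.2, h'.2.2]

/-- the inverse also preserves lines -/
theorem exists_LP_both (hΘ : IsCompatible Θ) (hK : BigDim p K) (hL : BigDim p L) :
    ∃ c : ZMod p, ∃ hc : c ≠ 0,
      LP (Θ.trans (LinearEquiv.smulOfNeZero (ZMod p) (KOne L p) c hc)) ∧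
      LP (Θ.trans (LinearEquiv.smulOfNeZero (ZMod p) (KOne L p) c hc)).symm := by
  have hp : p.Prime := Fact.out
  obtain ⟨c, hc, h1⟩ := exists_LP hΘ hL
  obtain ⟨d, hd, h2⟩ := exists_LP (compat_symm hΘ) hK
  set Θ1 := Θ.trans (LinearEquiv.smulOfNeZero (ZMod p) (KOne L p) c hc) with hΘ1
  set Θ2 := Θ.symm.trans (LinearEquiv.smulOfNeZero (ZMod p) (KOne K p) d hd) with hΘ2
  refine ⟨c, hc, h1, ?_⟩
  have e1 : ∀ t, Θ1 t = c • Θ t := fun t => rfl
  have e2 : ∀ t, Θ2 t = d • Θ.symm t := fun t => rfl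
  obtain ⟨y0, hy0, -⟩ := hK 0 0
  have hx : y0 ∉ Gp K p := fun h => hy0 (Gp_le_Gx _ h)
  have hx0 : y0 ≠ 0 := by rintro rfl; exact hx (zero_mem _)
  obtain ⟨y, hy⟩ := exists_Rep Θ1 hx0
  obtain ⟨α, hα⟩ := h1 y0 y 1 hx hy
  have hyG : y ∉ Gp L p := fun h => hx (hy.mem.mpr h)
  obtain ⟨w, hw⟩ := exists_Rep Θ2 hy.2.1
  obtain ⟨β, hβ⟩ := h2 y w α hyG hw
  have e3 : ∀ t, (Θ1.trans Θ2) t = (d * c).val • t := by
    intro t
    rw [LinearEquiv.trans_apply, e2, e1, map_smul, LinearEquiv.symm_apply_apply, smul_smul,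
      zsmul_eq]
  have hm0 : d * c ≠ 0 := mul_ne_zero hd hc
  have hm1 : 1 ≤ (d * c).val := by
    have := (ZMod.val_ne_zero (d * c)).mpr hm0
    omega
  have hm : (d * c).val < p := ZMod.val_lt _
  have r1 := (hy.trans_smul hw).2.2
  have r2 := (hα.trans_smul hβ).2.2
  have hw0 := hw.2.1
  have hwβ := hβ.2.1
  have hx1 := hα.1
  rw [e3, ← kc_pow hx0] at r1
  rw [e3, ← kc_pow hx1] at r2
  obtain ⟨g, hg⟩ := (kc_eq_iff hw0 (pow_ne_zero _ hx0)).mp r1.symm
  obtain ⟨f, hf⟩ := (kc_eq_iff (pow_ne_zero _ hx1) hwβ).mp r2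
  have hone : (d * c).val = 1 := by
    apply exists_poly hx hm1 hm (g := g) (f := f) (β := β)
    rw [← hg]
    simpa using hf
  have hdc : d * c = 1 := by
    rw [← ZMod.natCast_zmod_val (d * c), hone, Nat.cast_one]
  have : Θ1.symm = Θ2 := by
    ext t
    rw [LinearEquiv.symm_apply_eq, e1, e2, map_smul, LinearEquiv.apply_symm_apply, smul_smul,
      mul_comm, hdc, one_smul]
  rw [this]
  exact h2

theorem projRel (h1 : LP Θ) (h2 : LP Θ.symm) : ProjRel (Gp K p) (Gp L p) (Rep Θ) where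
  left_ne h := h.1
  right_ne h := h.2.1
  exists_right h := exists_Rep Θ h
  exists_left h := exists_Rep' Θ h
  right_unique := by
    intro x y y' h h'
    exact (kc_eq_iff h'.2.1 h.2.1).mp (by rw [← h.2.2, ← h'.2.2])
  left_unique := by
    intro x x' y h h'
    exact (kc_eq_iff h'.1 h.1).mp (Θ.injective (by rw [h.2.2, h'.2.2]))
  smul_right := by
    intro x y g h hg
    refine ⟨h.1, mul_ne_zero (by simpa using hg) h.2.1, ?_⟩
    rw [kc_smul hg h.2.1, h.2.2]
  smul_left := by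
    intro x y g h hg
    refine ⟨mul_ne_zero (by simpa using hg) h.1, h.2.1, ?_⟩
    rw [kc_smul hg h.1, h.2.2]
  mul h h' := h.mul h'
  inv h := h.inv
  one := ⟨one_ne_zero, one_ne_zero, by rw [kc_one, kc_one, map_zero]⟩
  line := by
    intro x y a h hx
    exact h1 x y a hx h
  line' := by
    intro x y a h hy
    obtain ⟨b, hb⟩ := h2 y x a hy h.symm
    exact ⟨b, hb.symm⟩

/-- The main existence theorem. -/
theorem exists_iso (hΘ : IsCompatible Θ) (hK : BigDim p K) (hL : BigDim p L) :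
    ∃ α : K ≃+* L, ∃ c : ZMod p, c ≠ 0 ∧
      ∀ u : Kˣ, Θ (cls K p u) = c • cls L p (Units.map α.toRingHom.toMonoidHom u) := by
  obtain ⟨c, hc, h1, h2⟩ := exists_LP_both hΘ hK hL
  have hPR := projRel h1 h2
  obtain ⟨α, hα⟩ := hPR.exists_ringEquiv (by
    intro x x' hx hx'
    obtain ⟨y, hy, hy'⟩ := hK x x'
    refine ⟨y, ind_of hx ?_, ind_of hx' ?_⟩
    · rintro a b rfl
      exact hy (add_mem (Gp_le_Gx x (SetLike.coe_mem a))
        (mul_mem (Gp_le_Gx x (SetLike.coe_mem b)) (self_mem_Gx x)))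
    · rintro a b rfl
      exact hy' (add_mem (Gp_le_Gx x' (SetLike.coe_mem a))
        (mul_mem (Gp_le_Gx x' (SetLike.coe_mem b)) (self_mem_Gx x'))))
    (by
      obtain ⟨y, hy, -⟩ := hK 0 0
      exact ⟨y, fun h => hy (Gp_le_Gx _ h)⟩)
  refine ⟨α, c⁻¹, inv_ne_zero hc, ?_⟩
  intro u
  have := (hα u u.ne_zero).2.2
  rw [kc_units] at this
  have e : kc p (α u) = cls L p (Units.map α.toRingHom.toMonoidHom u) := by
    rw [← kc_units]
    rfl
  rw [e] at this
  rw [← this]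
  change _ = c⁻¹ • (c • Θ (cls K p u))
  rw [smul_smul, inv_mul_cancel₀ hc, one_smul]

/-- uniqueness -/
theorem iso_unique (hK : BigDim p K) {α β : K ≃+* L} {c d : ZMod p} (hc : c ≠ 0) (hd : d ≠ 0)
    (hα : ∀ u : Kˣ, Θ (cls K p u) = c • cls L p (Units.map α.toRingHom.toMonoidHom u))
    (hβ : ∀ u : Kˣ, Θ (cls K p u) = d • cls L p (Units.map β.toRingHom.toMonoidHom u)) :
    α = β := by
  have hp : p.Prime := Fact.out
  have key : ∀ x : K, x ≠ 0 → kc p (α x) = (c⁻¹ * d).val • kc p (β x) := by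
    intro x hx
    have h1 := (hα (Units.mk0 x hx)).symm.trans (hβ (Units.mk0 x hx))
    have e1 : cls L p (Units.map α.toRingHom.toMonoidHom (Units.mk0 x hx)) = kc p (α x) := by
      rw [← kc_units]; rfl
    have e2 : cls L p (Units.map β.toRingHom.toMonoidHom (Units.mk0 x hx)) = kc p (β x) := by
      rw [← kc_units]; rfl
    rw [e1, e2] at h1
    have h2 : kc p (α x) = (c⁻¹ * d) • kc p (β x) := by
      rw [mul_smul, ← h1, smul_smul, inv_mul_cancel₀ hc, one_smul]
    rw [h2]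
    exact zsmul_eq _ _ _
  set m := (c⁻¹ * d).val with hm
  have hm0 : c⁻¹ * d ≠ 0 := mul_ne_zero (inv_ne_zero hc) hd
  have hm1 : 1 ≤ m := by
    have := (ZMod.val_ne_zero (c⁻¹ * d)).mpr hm0
    omega
  have hmlt : m < p := ZMod.val_lt _
  have hmem : ∀ x : K, x ∉ Gp K p → β x ∉ Gp L p := by
    intro x hx h
    apply hx
    obtain ⟨y, hy⟩ := mem_Gp.mp h
    refine mem_Gp.mpr ⟨β.symm y, ?_⟩
    apply β.injective
    rw [map_pow, RingEquiv.apply_symm_apply, hy]
  have hne : ∀ x : K, x ≠ 0 → β x ≠ 0 := fun x hx => by simpa using hx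
  have hne' : ∀ x : K, x ≠ 0 → α x ≠ 0 := fun x hx => by simpa using hx
  have step : ∀ x : K, x ∉ Gp K p → α x = β x := by
    intro x hx
    have hx0 : x ≠ 0 := by rintro rfl; exact hx (zero_mem _)
    have hx1 : x + 1 ≠ 0 := by
      intro h
      apply hx
      have : x = ((-1 : Gp K p) : K) := by push_cast; linear_combination h
      rw [this]; exact SetLike.coe_mem _
    have k1 := key x hx0
    have k2 := key (x + 1) hx1
    rw [← kc_pow (hne x hx0)] at k1
    rw [← kc_pow (hne _ hx1)] at k2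
    obtain ⟨g, hg⟩ := (kc_eq_iff (hne' x hx0) (pow_ne_zero _ (hne x hx0))).mp k1
    obtain ⟨f, hf⟩ := (kc_eq_iff (pow_ne_zero _ (hne _ hx1)) (hne' _ hx1)).mp k2.symm
    rw [map_add, map_add, map_one, map_one, hg] at hf
    have hone : m = 1 := exists_poly (hmem x hx) hm1 hmlt (g := g) (f := f) (β := 1) (by
      rw [hf]; push_cast; ring)
    rw [hone, pow_one, pow_one] at hf
    rw [hone, pow_one] at hg
    -- β x + 1 = f (g β x + 1)
    have hβx := hmem x hx
    have hfg : f * g = 1 := by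
      by_contra hne
      apply hβx
      have hne' : (f * g : L) - 1 ≠ 0 := by
        intro h
        apply hne
        apply Subtype.ext
        push_cast
        linear_combination h
      have : β x = (((1 - f) / (f * g - 1) : Gp L p) : L) := by
        push_cast
        rw [eq_div_iff hne']
        linear_combination -hf
      rw [this]
      exact SetLike.coe_mem _
    have hfg' : (f : L) * g = 1 := by
      have := congrArg Subtype.val hfg
      simpa using this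
    have hf1 : (f : L) = 1 := by linear_combination -hf + hfg' * (-β x)
    rw [hf1, one_mul] at hfg'
    rw [hg, hfg', one_mul]
  ext x
  by_cases hx : x ∈ Gp K p
  · obtain ⟨y, hy, -⟩ := hK 0 0
    have hyG : y ∉ Gp K p := fun h => hy (Gp_le_Gx _ h)
    have hxy : x + y ∉ Gp K p := fun h => hyG (by simpa using sub_mem h hx)
    have h1 := step _ hyG
    have h2 := step _ hxy
    rw [map_add, map_add, h1] at h2
    exact add_right_cancel h2
  · exact step x hx

end two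

end Crest.Agent.Row9
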