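import Mathlib
import Crest.Agent.Row9.Theta

set_option autoImplicit false

open TensorProduct

namespace Crest.Agent.Row9

open scoped IntermediateField.algebraAdjoinAdjoin in
theorem finrank_kaehler (k K : Type*) [Field k] [Field K] [Algebra k K] [PerfectField k]
    [Algebra.EssFiniteType k K] :
    ∃ s : Finset K, IsTranscendenceBasis k ((↑) : s → K) ∧
      Module.finrank K Ω[K⁄k] = s.card := by
  obtain ⟨s, hs, H⟩ := exists_isTranscendenceBasis_and_isSeparable_of_perfectField k K
  refine ⟨s, hs, ?_⟩
  let v : s → K := (↑)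
  have hv : AlgebraicIndependent k v := hs.1
  have hr : Set.range v = (s : Set K) := by simp [v]
  have : Algebra.IsSeparable (IntermediateField.adjoin k (Set.range v)) K := by
    rw [hr]; exact H
  let a1 : Algebra (MvPolynomial s k) (Algebra.adjoin k (Set.range v)) :=
    (hv.aevalEquiv : MvPolynomial s k →+* _).toAlgebra
  let a2 : Algebra (MvPolynomial s k) K := (MvPolynomial.aeval v : MvPolynomial s k →ₐ[k] K).toRingHom.toAlgebra
  have t1 : IsScalarTower k (MvPolynomial s k) K := IsScalarTower.of_algebraMap_eq' (by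
    ext x
    change algebraMap k K x = MvPolynomial.aeval v (MvPolynomial.C x)
    rw [MvPolynomial.aeval_C])
  have t2 : IsScalarTower (MvPolynomial s k) (Algebra.adjoin k (Set.range v)) K :=
    IsScalarTower.of_algebraMap_eq' (by
      apply RingHom.ext
      intro f
      change MvPolynomial.aeval v f = ((hv.aevalEquiv f : Algebra.adjoin k (Set.range v)) : K)
      exact (hv.algebraMap_aevalEquiv f).symm)
  have e1 : Algebra.FormallyEtale (MvPolynomial s k) (Algebra.adjoin k (Set.range v)) := by
    let e : MvPolynomial s k ≃ₐ[MvPolynomial s k] (Algebra.adjoin k (Set.range v)) :=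
      AlgEquiv.ofRingEquiv (f := (hv.aevalEquiv : MvPolynomial s k ≃+* _)) (fun x => rfl)
    exact Algebra.FormallyEtale.of_equiv e
  have e2 : Algebra.FormallyEtale (Algebra.adjoin k (Set.range v))
      (IntermediateField.adjoin k (Set.range v)) :=
    Algebra.FormallyEtale.of_isLocalization (nonZeroDivisors _)
  have e3 : Algebra.FormallyEtale (IntermediateField.adjoin k (Set.range v)) K :=
    Algebra.FormallyEtale.of_isSeparable _ K
  have e4 : Algebra.FormallyEtale (Algebra.adjoin k (Set.range v)) K :=
    Algebra.FormallyEtale.comp _ (IntermediateField.adjoin k (Set.range v)) _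
  have e5 : Algebra.FormallyEtale (MvPolynomial s k) K :=
    Algebra.FormallyEtale.comp _ (Algebra.adjoin k (Set.range v)) _
  let E := KaehlerDifferential.tensorKaehlerEquivOfFormallyEtale k (MvPolynomial s k) K
  let b := (KaehlerDifferential.mvPolynomialBasis k s).baseChange K
  rw [← E.finrank_eq, Module.finrank_eq_card_basis b, Fintype.card_coe]


section
variable {L : Type*} [Field L] {p : ℕ} [Fact p.Prime] [CharP L p]

/-- elements whose differential lies in the span of `D x`. -/
def Dsub (l : Type*) [Field l] [Algebra l L] (x : L) : Subfield L where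
  carrier := {w | KaehlerDifferential.D l L w ∈ Submodule.span L {KaehlerDifferential.D l L x}}
  mul_mem' := by
    intro a b ha hb
    simp only [Set.mem_ofPred_eq] at *
    rw [Derivation.leibniz]
    exact add_mem (Submodule.smul_mem _ _ hb) (Submodule.smul_mem _ _ ha)
  one_mem' := by simp
  add_mem' := by
    intro a b ha hb
    simp only [Set.mem_ofPred_eq] at *
    rw [map_add]
    exact add_mem ha hb
  zero_mem' := by simp
  neg_mem' := by
    intro a ha
    simp only [Set.mem_ofPred_eq] at *
    rw [map_neg]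
    exact neg_mem ha
  inv_mem' := by
    intro a ha
    simp only [Set.mem_ofPred_eq] at *
    rw [Derivation.leibniz_inv]
    exact Submodule.smul_mem _ _ ha

theorem D_pow_eq_zero (l : Type*) [Field l] [Algebra l L] (y : L) :
    KaehlerDifferential.D l L (y ^ p) = 0 := by
  rw [Derivation.leibniz_pow, ← smul_assoc, nsmul_eq_mul, CharP.cast_eq_zero, zero_mul, zero_smul]

theorem exists_not_mem_Gx (l : Type*) [Field l] [Algebra l L] [PerfectField l]
    [Algebra.EssFiniteType l L] (h2 : 2 ≤ Algebra.trdeg l L) (x : L) : ∃ y, y ∉ Gx p x := by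
  by_contra hcon
  push Not at hcon
  obtain ⟨s, hs, hcard⟩ := finrank_kaehler l L
  rw [← hs.cardinalMk_eq_trdeg] at h2
  have h2' : 2 ≤ s.card := by
    rw [Cardinal.mk_coe_finset] at h2
    exact_mod_cast h2
  have hle : Gx p x ≤ Dsub l x := by
    apply Gx_le
    · intro g hg
      obtain ⟨y, rfl⟩ := mem_Gp.mp hg
      change KaehlerDifferential.D l L (y ^ p) ∈ Submodule.span L {KaehlerDifferential.D l L x}
      rw [D_pow_eq_zero]
      exact zero_mem _
    · exact Submodule.mem_span_singleton_self _
  have htop : (⊤ : Submodule L Ω[L⁄l]) ≤ Submodule.span L {KaehlerDifferential.D l L x} := by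
    rw [← KaehlerDifferential.span_range_derivation l L, Submodule.span_le]
    rintro _ ⟨w, rfl⟩
    exact hle (hcon w)
  have h1 : Module.finrank L Ω[L⁄l] ≤ 1 := by
    apply finrank_le_one (KaehlerDifferential.D l L x)
    intro w
    exact Submodule.mem_span_singleton.mp (htop trivial)
  omega

theorem bigDim (l : Type*) [Field l] [Algebra l L] [PerfectField l]
    [Algebra.EssFiniteType l L] (h2 : 2 ≤ Algebra.trdeg l L) : BigDim p L := by
  intro x x'
  obtain ⟨a, ha⟩ := exists_not_mem_Gx (p := p) l h2 x
  obtain ⟨b, hb⟩ := exists_not_mem_Gx (p := p) l h2 x'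
  by_cases ha' : a ∈ Gx p x'
  · by_cases hb' : b ∈ Gx p x
    · refine ⟨a + b, ?_, ?_⟩
      · intro h
        exact ha (by simpa using sub_mem h hb')
      · intro h
        exact hb (by simpa using sub_mem h ha')
    · exact ⟨b, hb', hb⟩
  · exact ⟨a, ha, ha'⟩

/-- the largest perfect subfield -/
def Emax (p : ℕ) (L : Type*) [Field L] [Fact p.Prime] [CharP L p] : Subfield L :=
  ⨅ n : ℕ, (iterateFrobenius L p n).fieldRange

theorem mem_Emax {x : L} : x ∈ Emax p L ↔ ∀ n : ℕ, ∃ y, y ^ p ^ n = x := by
  unfold Emax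
  rw [Subfield.mem_iInf]
  rfl

theorem Emax_root {x : L} (hx : x ∈ Emax p L) : ∃ y ∈ Emax p L, y ^ p = x := by
  rw [mem_Emax] at hx
  obtain ⟨y, hy⟩ := hx 1
  rw [pow_one] at hy
  refine ⟨y, ?_, hy⟩
  rw [mem_Emax]
  intro n
  obtain ⟨z, hz⟩ := hx (n + 1)
  refine ⟨z, ?_⟩
  apply frob_inj (p := p)
  rw [hy, ← hz, ← pow_mul, ← pow_succ]

theorem le_Emax {E : Subfield L} (hE : ∀ e ∈ E, ∃ f ∈ E, f ^ p = e) : E ≤ Emax p L := by
  intro e he
  rw [mem_Emax]
  intro n
  suffices ∃ y ∈ E, y ^ p ^ n = e by
    obtain ⟨y, -, hy⟩ := this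
    exact ⟨y, hy⟩
  induction n with
  | zero => exact ⟨e, he, by simp⟩
  | succ n ih =>
    obtain ⟨y, hy, hye⟩ := ih
    obtain ⟨z, hz, hzy⟩ := hE y hy
    exact ⟨z, hz, by rw [pow_succ', pow_mul, hzy, hye]⟩

theorem roots_of_isAlgClosed (l : Subfield L) [IsAlgClosed l] : ∀ e ∈ l, ∃ f ∈ l, f ^ p = e := by
  intro e he
  obtain ⟨z, hz⟩ := IsAlgClosed.exists_pow_nat_eq (⟨e, he⟩ : l) (Fact.out : p.Prime).pos
  exact ⟨z, SetLike.coe_mem z, by have := congrArg Subtype.val hz; simpa using this⟩

/-- the field of constants is the largest perfect subfield. -/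
theorem Emax_le (l : Subfield L) [IsAlgClosed l] [Algebra.EssFiniteType l L] :
    Emax p L ≤ l := by
  let E : IntermediateField l L :=
    { Emax p L with
      algebraMap_mem' := fun r => le_Emax (roots_of_isAlgClosed l) (SetLike.coe_mem r) }
  have hE : ∀ x, x ∈ E ↔ x ∈ Emax p L := fun x => Iff.rfl
  have : CharP E p := inferInstance
  have : PerfectRing E p := by
    apply PerfectRing.ofSurjective
    intro x
    obtain ⟨y, hy, hyx⟩ := Emax_root x.2
    refine ⟨⟨y, hy⟩, ?_⟩
    apply Subtype.ext
    simpa [frobenius_def] using hyx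
  have : PerfectField E := PerfectRing.toPerfectField E p
  have : Algebra.EssFiniteType E L := Algebra.EssFiniteType.of_comp l E L
  obtain ⟨s, hs, hcard⟩ := finrank_kaehler l L
  obtain ⟨t, ht, hcard'⟩ := finrank_kaehler E L
  have hsub : ∀ w : Ω[E⁄l], w = 0 := by
    have : (⊤ : Submodule E Ω[E⁄l]) ≤ ⊥ := by
      rw [← KaehlerDifferential.span_range_derivation l E, Submodule.span_le]
      rintro _ ⟨w, rfl⟩
      obtain ⟨y, hy⟩ := (PerfectRing.bijective_frobenius (R := E) (p := p)).2 w
      have hy' : y ^ p = w := hy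
      rw [← hy', D_pow_eq_zero]
      exact zero_mem _
    intro w
    exact (Submodule.mem_bot E).mp (this trivial)
  have : Subsingleton Ω[E⁄l] := ⟨fun a b => by rw [hsub a, hsub b]⟩
  have hinj : Function.Injective (KaehlerDifferential.map l E L L) := by
    rw [injective_iff_map_eq_zero]
    intro w hw
    obtain ⟨v, hv⟩ := (KaehlerDifferential.exact_mapBaseChange_map l E L w).mp hw
    have : v = 0 := by
      have : Subsingleton (L ⊗[E] Ω[E⁄l]) := inferInstance
      exact Subsingleton.elim _ _
    rw [← hv, this, map_zero]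
  have hle : Module.finrank L Ω[L⁄l] ≤ Module.finrank L Ω[L⁄E] :=
    LinearMap.finrank_le_finrank_of_injective hinj
  rw [hcard, hcard'] at hle
  have : FaithfulSMul l E := (faithfulSMul_iff_algebraMap_injective l E).mpr (algebraMap l E).injective
  have : FaithfulSMul E L := (faithfulSMul_iff_algebraMap_injective E L).mpr (algebraMap E L).injective
  have h1 := _root_.trdeg_add_eq (A := L) l E
  rw [← hs.cardinalMk_eq_trdeg, ← ht.cardinalMk_eq_trdeg] at h1
  have h2 : Algebra.trdeg l E = 0 := by
    have h3 : Algebra.trdeg l E + (t.card : Cardinal) = (s.card : Cardinal) := by simpa using h1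
    have h4 : Algebra.trdeg l E < Cardinal.aleph0 := by
      apply lt_of_le_of_lt _ (Cardinal.natCast_lt_aleph0 (n := s.card))
      rw [← h3]
      exact self_le_add_right _ _
    obtain ⟨n, hn⟩ := Cardinal.lt_aleph0.mp h4
    rw [hn] at h3 ⊢
    have h5 : n + t.card = s.card := by exact_mod_cast h3
    have h6 : n = 0 := by omega
    rw [h6, Nat.cast_zero]
  rw [_root_.trdeg_eq_zero_iff] at h2
  have h3 : E = ⊥ := IntermediateField.eq_bot_of_isAlgClosed_of_isAlgebraic E
  intro x hx
  have : x ∈ E := (hE x).mpr hx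
  rw [h3, IntermediateField.mem_bot] at this
  obtain ⟨y, rfl⟩ := this
  exact SetLike.coe_mem y

theorem essFiniteType_of (l : Subfield L)
    (hL : ∃ s : Finset L, Subfield.closure ((l : Set L) ∪ (s : Set L)) = ⊤) :
    Algebra.EssFiniteType l L := by
  rw [← IntermediateField.fg_top_iff]
  obtain ⟨s, hs⟩ := hL
  refine ⟨s, ?_⟩
  rw [eq_top_iff]
  intro x _
  have hx : x ∈ Subfield.closure ((l : Set L) ∪ (s : Set L)) := by rw [hs]; trivial
  have hle : Subfield.closure ((l : Set L) ∪ (s : Set L)) ≤
      (IntermediateField.adjoin l (s : Set L)).toSubfield := by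
    rw [Subfield.closure_le]
    rintro y (hy | hy)
    · exact (IntermediateField.adjoin l (s : Set L)).algebraMap_mem ⟨y, hy⟩
    · exact IntermediateField.subset_adjoin l _ hy
  exact hle hx

end

end Crest.Agent.Row9
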